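import Vale.Agent.P097.H650.Transfer
import Vale.Agent.P097.H650.Word

/-!
# F5a: deformation of a closed word, statements

A line is a pair `(al, p)` (normal angle, support number). The mirror with support function `H`
reflects `(al, p)` to `(al', p')` if both are tangent lines drawn from one point of the mirror
(`H650.Refl`).
-/

namespace Vale.Agent.P097.H365.F5

open Complex Metric Set Filter Topology
open Vale.Agent.P097.H650 (Refl)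

/-- Parameter of the point of the `k`-th mirror. -/
noncomputable def mid {T : Type} (al : ℕ → T → ℂ) (k : ℕ) (u : T) : ℂ := (al k u + al (k + 1) u) / 2

/-- Half turning angle at the `k`-th mirror. -/
noncomputable def trn {T : Type} (al : ℕ → T → ℂ) (k : ℕ) (u : T) : ℂ := (al (k + 1) u - al k u) / 2

/-- A word on `U`: lines `(al k u, p k u)`, mirrors `H k` on `D k`, `rho sin d ≠ 0`. -/
structure WordOn (n : ℕ) (U : Set (ℂ × ℂ)) (H : ℕ → ℂ → ℂ) (D : ℕ → Set ℂ)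
    (al p : ℕ → ℂ × ℂ → ℂ) : Prop where
  aA : ∀ k ≤ n, AnalyticOnNhd ℂ (al k) U
  pA : ∀ k ≤ n, AnalyticOnNhd ℂ (p k) U
  rf : ∀ k < n, ∀ u ∈ U, Refl (H k) (al k u) (p k u) (al (k + 1) u) (p (k + 1) u)
  nd : ∀ k < n, ∀ u ∈ U,
    (H k (mid al k u) + deriv (deriv (H k)) (mid al k u)) * sin (trn al k u) ≠ 0
  mem : ∀ k < n, ∀ u ∈ U, mid al k u ∈ D k

/-- The mirror `H` on `D` is a coordinate of a solution `z` of a polynomial autonomous system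
`z' = Φ(z)`; `z i0 = e^{iψ}`, `z i1 = H`. -/
structure PState {τ : Type} [Fintype τ] (Φ : τ → MvPolynomial τ ℂ) (i0 i1 : τ) (D : Set ℂ)
    (H : ℂ → ℂ) (z : ℂ → τ → ℂ) : Prop where
  hΦ : Φ i0 = MvPolynomial.C I * MvPolynomial.X i0
  der : ∀ ψ ∈ D, HasDerivAt z (fun i => MvPolynomial.eval (z ψ) (Φ i)) ψ
  hE : ∀ ψ ∈ D, z ψ i0 = exp (I * ψ)
  hH : ∀ ψ ∈ D, z ψ i1 = H ψ

/-- Jacobian determinant of two functions of two variables. -/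
noncomputable def jac (f g : ℂ × ℂ → ℂ) (u : ℂ × ℂ) : ℂ :=
  fderiv ℂ f u (1, 0) * fderiv ℂ g u (0, 1) - fderiv ℂ f u (0, 1) * fderiv ℂ g u (1, 0)

/-- Statement (β): family of mirrors near a given one. -/
def Beta : Prop :=
  ∀ {τ : Type} [Fintype τ] (Φ : τ → MvPolynomial τ ℂ) (i0 i1 : τ) (c : ℂ) (R : ℝ) (V : Set ℂ)
    (H : ℂ → ℂ) (z : ℂ → τ → ℂ), 0 < R → IsOpen V → closedBall c R ⊆ V →
    PState Φ i0 i1 V H z → ∀ ψ0 ∈ ball c R,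
    ∃ δ > 0, ∃ (T : (τ → ℂ) → ℂ) (Z : ℂ × (τ → ℂ) → τ → ℂ),
      AnalyticOnNhd ℂ T (ball (z ψ0) δ) ∧ T (z ψ0) = ψ0 ∧
      (∀ y ∈ ball (z ψ0) δ, T y ∈ ball c R ∧ exp (I * T y) = y i0) ∧
      AnalyticOnNhd ℂ Z (ball c R ×ˢ ball (z ψ0) δ) ∧
      (∀ y ∈ ball (z ψ0) δ, Z (T y, y) = y) ∧
      (∀ y ∈ ball (z ψ0) δ, PState Φ i0 i1 (ball c R) (fun ψ => Z (ψ, y) i1)
        (fun ψ => Z (ψ, y))) ∧
      ∀ ψ ∈ ball c R, Z (ψ, z ψ0) = z ψ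

/-- Lines `(A k, P k)` as functions of `(u, e)` near `(u1, 0)` for the deformed mirrors `G`. -/
structure Lift (n : ℕ) (al p : ℕ → ℂ × ℂ → ℂ) (G : ℕ → ℂ × ℂ → ℂ) (u1 : ℂ × ℂ)
    (A P : ℕ → (ℂ × ℂ) × ℂ → ℂ) : Prop where
  aA : ∀ k ≤ n, AnalyticAt ℂ (A k) (u1, 0)
  pA : ∀ k ≤ n, AnalyticAt ℂ (P k) (u1, 0)
  a0 : ∀ k ≤ n, A k (u1, 0) = al k u1
  p0 : ∀ k ≤ n, P k (u1, 0) = p k u1
  bs : ∀ᶠ v in 𝓝 (u1, (0 : ℂ)), A 0 v = al 0 v.1 ∧ P 0 v = p 0 v.1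
  rf : ∀ k < n, ∀ᶠ v in 𝓝 (u1, (0 : ℂ)),
    Refl (fun ψ => G k (ψ, v.2)) (A k v) (P k v) (A (k + 1) v) (P (k + 1) v)

/-- Statement of F5a. -/
def F5a : Prop :=
  ∀ {n n' : ℕ} {τ τ' : Type} [Fintype τ] [Fintype τ'] {U : Set (ℂ × ℂ)}, IsOpen U →
    IsPreconnected U →
    -- natural word
    ∀ {i0 i1 : τ} {c : ℂ} {R : ℝ} {V : Set ℂ} {h : ℂ → ℂ} {Φ : τ → MvPolynomial τ ℂ}
      {z : ℂ → τ → ℂ} {al p : ℕ → ℂ × ℂ → ℂ},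
    0 < R → IsOpen V → closedBall c R ⊆ V → PState Φ i0 i1 V h z →
    (∀ Q : MvPolynomial (Fin 2) ℂ,
      (∀ ψ ∈ ball c R, MvPolynomial.eval ![exp (I * ψ), h ψ] Q = 0) → Q = 0) →
    WordOn n U (fun _ => h) (fun _ => ball c R) al p →
    (∀ i < n, ∀ j < n, i ≠ j → ∃ u ∈ U, jac (mid al i) (mid al j) u ≠ 0) →
    -- star word
    ∀ {i0' i1' : ℕ → τ'} {c' : ℕ → ℂ} {R' : ℕ → ℝ} {V' : ℕ → Set ℂ}
      {h' : ℕ → ℂ → ℂ} {Φ' : ℕ → τ' → MvPolynomial τ' ℂ} {z' : ℕ → ℂ → τ' → ℂ}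
      {al' p' : ℕ → ℂ × ℂ → ℂ},
    (∀ k < n', 0 < R' k) → (∀ k < n', IsOpen (V' k)) →
    (∀ k < n', closedBall (c' k) (R' k) ⊆ V' k) →
    (∀ k < n', PState (Φ' k) (i0' k) (i1' k) (V' k) (h' k) (z' k)) →
    WordOn n' U h' (fun k => ball (c' k) (R' k)) al' p' →
    -- outer lines
    (∃ u ∈ U, jac (al 0) (p 0) u ≠ 0) →
    (∀ u ∈ U, al' 0 u = al 0 u ∧ p' 0 u = p 0 u) →
    (∀ u ∈ U, exp (I * al' n' u) = exp (I * al n u) ∧ p' n' u = p n u) →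
    ∃ u1 ∈ U, ∃ e0 > 0, ∃ (HN HS : ℕ → ℂ × ℂ → ℂ),
      (∀ k < n, AnalyticOnNhd ℂ (HN k) (ball c R ×ˢ ball 0 e0)) ∧
      (∀ k < n, ∀ ψ ∈ ball c R, HN k (ψ, 0) = h ψ) ∧
      (∀ k < n', AnalyticOnNhd ℂ (HS k) (ball (c' k) (R' k) ×ˢ ball 0 e0)) ∧
      (∀ k < n', ∀ ψ ∈ ball (c' k) (R' k), HS k (ψ, 0) = h' k ψ) ∧
      (∀ i < n, ∀ j < n, i ≠ j → ∃ ψ ∈ ball c R,
        deriv (fun e => HN i (ψ, e)) 0 ≠ deriv (fun e => HN j (ψ, e)) 0) ∧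
      ∃ (A P A' P' : ℕ → (ℂ × ℂ) × ℂ → ℂ) (m0 : ℂ),
        Lift n al p HN u1 A P ∧ Lift n' al' p' HS u1 A' P' ∧ exp (I * m0) = 1 ∧
        ∀ᶠ v in 𝓝 (u1, (0 : ℂ)), A' n' v = A n v + m0 ∧ P' n' v = P n v

end Vale.Agent.P097.H365.F5
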