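import Vale.Agent.P097.H365.F5.Main
import Vale.Agent.P097.H456.Fct.Br5a

/-!
# F5a: the literal row
-/

namespace Vale.Agent.P097.H365.F5

theorem f5aLit : H456.Fct.F5a := H456.Fct.f5a_of f5a

end Vale.Agent.P097.H365.F5
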