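import Vale.Agent.P097.H365.F5.Defs

/-!
# F5a (α): the patch and its tangent vectors
-/

namespace Vale.Agent.P097.H365.F5

open Filter Topology Metric Polynomial Vale.Agent.P097.H650

section

variable {E : Type*} [NormedAddCommGroup E] [NormedSpace ℂ E]

theorem hasDerivAt_eval_zero {σ : Type*} {f : ℂ → σ → ℂ}
    (hf : ∀ i, HasDerivAt (fun s => f s i) 0 0) (Q : MvPolynomial σ ℂ) :
    HasDerivAt (fun s => MvPolynomial.eval (f s) Q) 0 0 := by
  induction Q using MvPolynomial.induction_on with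
  | C c => simpa using hasDerivAt_const (0 : ℂ) c
  | add p q hp hq => simpa using hp.fun_add hq
  | mul_X p i hp => simpa using hp.fun_mul (hf i)

/-- Derivative of an algebraic relation along a path on which the coefficients are stationary. -/
theorem hasDerivAt_eval₂ {σ : Type*} {f : ℂ → σ → ℂ}
    (hf : ∀ i, HasDerivAt (fun s => f s i) 0 0) {g : ℂ → ℂ} {g' : ℂ} (hg : HasDerivAt g g' 0)
    (u : E) (P : Polynomial (MvPolynomial σ ℂ)) :
    HasDerivAt (fun s => P.eval₂ (evM (evC E) u (f s)) (g s))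
      ((derivative P).eval₂ (evM (evC E) u (f 0)) (g 0) * g') 0 := by
  induction P using Polynomial.induction_on' with
  | add p q hp hq =>
    have := hp.fun_add hq
    simpa [Polynomial.eval₂_add, add_mul] using this
  | monomial n c =>
    have h1 := (hasDerivAt_eval_zero hf c).fun_mul (hg.fun_pow n)
    simp only [Polynomial.eval₂_monomial, evM_evC, Polynomial.derivative_monomial, map_mul,
      map_natCast]
    refine h1.congr_deriv ?_
    ring

/-- **The patch at one generic point, with tangent vectors for finitely many independent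
subfamilies.** -/
theorem alpha [CompleteSpace E] {ι κ : Type} [Fintype ι] [Finite κ] {U : Set E} (hUo : IsOpen U)
    (hUp : IsPreconnected U) (hUn : U.Nonempty) {F : E → ι → ℂ} (hF : AnalyticOnNhd ℂ F U)
    (S0 : κ → Set ι) (h0 : ∀ p, Ind (evC E) U (fun u (i : S0 p) => F u i)) (a : κ → ι)
    (ha : ∀ p, a p ∈ S0 p) :
    ∃ u0 ∈ U, ∃ (S : Set ι) (_ : Fintype S) (φ : (S → ℂ) → ι → ℂ) (r : ℝ), 0 < r ∧
      AnalyticOnNhd ℂ φ (ball (fun i : S => F u0 i) r) ∧
      φ (fun i : S => F u0 i) = F u0 ∧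
      (∀ Q : MvPolynomial ι ℂ, (∀ u ∈ U, MvPolynomial.eval (F u) Q = 0) →
        ∀ x ∈ ball (fun i : S => F u0 i) r, MvPolynomial.eval (φ x) Q = 0) ∧
      ∀ p, ∃ ξ : S → ℂ, fderiv ℂ φ (fun i : S => F u0 i) ξ (a p) = 1 ∧
        (∀ i ∈ S0 p, i ≠ a p → fderiv ℂ φ (fun i : S => F u0 i) ξ i = 0) ∧
        ∀ (A : Set ι), A ⊆ S0 p \ {a p} → ∀ m,
          ¬ Ind (evC E) U (fun u (o : Option A) => o.elim (F u m) (fun i : A => F u i)) →
          fderiv ℂ φ (fun i : S => F u0 i) ξ m = 0 := by
  classical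
  have hevC : ∀ c : ℂ, AnalyticOnNhd ℂ (evC E c) U := fun c u _ => analyticAt_const
  have hFi : ∀ (i : ι) (u : E), u ∈ U → AnalyticAt ℂ (fun v => F v i) u := fun i u hu =>
    ((ContinuousLinearMap.proj (R := ℂ) (φ := fun _ : ι => ℂ) i).analyticAt _).fun_comp (hF u hu)
  -- base patch
  have hind0 : Ind (evC E) U (fun u (i : (∅ : Set ι)) => F u i) := by
    intro Q hQ
    obtain ⟨u, hu⟩ := hUn
    have h1 := hQ u hu
    obtain ⟨c, rfl⟩ := MvPolynomial.C_surjective (R := ℂ) ((∅ : Set ι) : Type) Q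
    simp only [evM_C, evC_apply] at h1
    simp [h1]
  obtain ⟨S, iS, -, hSi, D, hDa, hD0, hD⟩ := patchFull (ev := evC E) hUo hUp hevC hF ∅ hind0
  -- patches for the given subfamilies
  have hp := fun p => patchFull (ev := evC E) hUo hUp hevC hF (S0 p) (h0 p)
  choose S' iS' hS0' hSi' D' hDa' hD0' hD' using hp
  -- separable relations
  have hsep : ∀ q : {q : Set ι × ι // Ind (evC E) U (fun u (i : q.1) => F u i) ∧
      ¬ Ind (evC E) U (fun u (o : Option q.1) => o.elim (F u q.2) (fun i : q.1 => F u i))},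
      ∃ P : Polynomial (MvPolynomial q.1.1 ℂ),
        (∀ u ∈ U, P.eval₂ (evM (evC E) u (fun i : q.1.1 => F u i)) (F u q.1.2) = 0) ∧
        ∃ u ∈ U, (derivative P).eval₂ (evM (evC E) u (fun i : q.1.1 => F u i)) (F u q.1.2) ≠ 0 :=
    fun q => dep_poly q.2.1 q.2.2
  choose P hPv hPd using hsep
  -- generic point
  let DD : (ι ⊕ (κ × ι)) ⊕ {q : Set ι × ι // Ind (evC E) U (fun u (i : q.1) => F u i) ∧
      ¬ Ind (evC E) U (fun u (o : Option q.1) => o.elim (F u q.2) (fun i : q.1 => F u i))} →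
      E → ℂ := Sum.elim (Sum.elim D (fun q => D' q.1 q.2)) (fun q u =>
        (derivative (P q)).eval₂ (evM (evC E) u (fun i : q.1.1 => F u i)) (F u q.1.2))
  obtain ⟨u0, ⟨-, hu0⟩, hgen⟩ := exists_generic (D := DD) hUo hUp (by
      rintro ((m | q) | q)
      · exact hDa m
      · exact hDa' q.1 q.2
      · intro u hu
        exact analyticAt_evP (ev := evC E) (a := fun u : E => u) (fun c => hevC c u hu)
          analyticAt_id (AnalyticAt.pi fun i : q.1.1 => hFi i u hu) (hFi q.1.2 u hu)
          (derivative (P q))) (by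
      rintro ((m | q) | q)
      · exact hD0 m hUn
      · exact hD0' q.1 q.2 hUn
      · exact hPd q) isOpen_univ (by simpa using hUn)
  obtain ⟨φ, r, hr, hball, hφa, hφS, hφF, hφ0, hφu, hφQ⟩ := hD u0 hu0
    (fun m => hgen (Sum.inl (Sum.inl m)))
  have hmem : ∀ x ∈ ball (fun i : S => F u0 i) r,
      (u0, x) ∈ ball (u0, fun i : S => F u0 i) r := by
    intro x hx
    rw [mem_ball, Prod.dist_eq, dist_self]
    exact max_lt hr hx
  have hφa' : AnalyticOnNhd ℂ (fun x => φ (u0, x)) (ball (fun i : S => F u0 i) r) := fun x hx =>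
    (hφa _ (hmem x hx)).fun_comp (analyticAt_const.prod analyticAt_id)
  refine ⟨u0, hu0, S, iS, fun x => φ (u0, x), r, hr, hφa', hφ0, ?_, ?_⟩
  · intro Q hQ x hx
    have := hφQ Q (fun u hu => by rw [evM_evC]; exact hQ u hu) (u0, x) (hmem x hx)
    rwa [evM_evC] at this
  intro p
  obtain ⟨φp, rp, hrp, hballp, hφpa, hφpS, hφpF, hφp0, -, hφpQ⟩ := hD' p u0 hu0
    (fun m => hgen (Sum.inl (Sum.inr (p, m))))
  have hmemp : ∀ x ∈ ball (fun i : S' p => F u0 i) rp,
      (u0, x) ∈ ball (u0, fun i : S' p => F u0 i) rp := by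
    intro x hx
    rw [mem_ball, Prod.dist_eq, dist_self]
    exact max_lt hrp hx
  set ap : S' p := ⟨a p, hS0' p (ha p)⟩ with hap
  set y : ℂ → (S' p → ℂ) := fun s => (fun i : S' p => F u0 i) + s • Pi.single ap (1 : ℂ) with hy
  have hy0 : y 0 = fun i : S' p => F u0 i := by simp [hy]
  have hyd : HasDerivAt y (Pi.single ap (1 : ℂ)) 0 := by
    have h1 : HasDerivAt (fun s : ℂ => s • (Pi.single ap (1 : ℂ) : S' p → ℂ))
        ((1 : ℂ) • Pi.single ap (1 : ℂ)) 0 := (hasDerivAt_id (0 : ℂ)).smul_const _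
    rw [one_smul] at h1
    exact h1.const_add _
  set w : ℂ → ι → ℂ := fun s => φp (u0, y s) with hw
  have hw0 : w 0 = F u0 := by simp only [hw, hy0]; exact hφp0
  have hwd : DifferentiableAt ℂ w 0 := by
    have h1 : AnalyticAt ℂ φp (u0, y 0) := by
      rw [hy0]; exact hφpa _ (mem_ball_self hrp)
    have h2 : DifferentiableAt ℂ (fun s => (u0, y s)) 0 :=
      (differentiableAt_const _).prodMk hyd.differentiableAt
    exact DifferentiableAt.comp (0 : ℂ) (g := φp) (f := fun s => (u0, y s))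
      h1.differentiableAt h2
  have hwS : ∀ s, ∀ i : S' p, w s i = y s i := fun s i => hφpS (u0, y s) i
  set w' := deriv w 0 with hw'
  have hwd' : HasDerivAt w w' 0 := hwd.hasDerivAt
  have hwi : ∀ i, HasDerivAt (fun s => w s i) (w' i) 0 := fun i => (hasDerivAt_pi.1 hwd') i
  have hw'S : ∀ i : S' p, w' i = (Pi.single ap (1 : ℂ) : S' p → ℂ) i := by
    intro i
    have h1 := hwi i
    have h2 : (fun s => w s i) = fun s => y s i := funext fun s => hwS s i
    rw [h2] at h1
    exact h1.unique ((hasDerivAt_pi.1 hyd) i)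
  -- relations along the path
  have hballev : ∀ᶠ s in 𝓝 (0 : ℂ), y s ∈ ball (fun i : S' p => F u0 i) rp := by
    have h1 : ContinuousAt y 0 := hyd.continuousAt
    have h2 := h1.preimage_mem_nhds (t := ball (fun i : S' p => F u0 i) rp)
      (by rw [hy0]; exact ball_mem_nhds _ hrp)
    exact h2
  have hrel : ∀ᶠ s in 𝓝 (0 : ℂ), ∀ Q : MvPolynomial ι ℂ,
      (∀ u ∈ U, evM (evC E) u (F u) Q = 0) → evM (evC E) u0 (w s) Q = 0 := by
    filter_upwards [hballev] with s hs Q hQ
    exact hφpQ Q hQ (u0, y s) (hmemp _ hs)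
  -- uniqueness: the path lies on the base patch
  have hpath : ∀ᶠ s in 𝓝 (0 : ℂ), φ (u0, fun i : S => w s i) = w s := by
    have hc : ContinuousAt (fun s => (((u0, fun i : S => w s i), w s) :
        (E × (S → ℂ)) × (ι → ℂ))) 0 := by
      refine (continuousAt_const.prodMk ?_).prodMk hwd.continuousAt
      exact continuousAt_pi.2 fun i => (hwi i).continuousAt
    have h1 := hc.tendsto.eventually (p := fun v => (∀ i : S, v.2 i = v.1.2 i) →
        (∀ Q : MvPolynomial ι ℂ, (∀ u ∈ U, evM (evC E) u (F u) Q = 0) →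
          evM (evC E) v.1.1 v.2 Q = 0) → φ v.1 = v.2) (by
        simp only [hw0]; exact hφu)
    filter_upwards [h1, hrel] with s h2 h3
    exact h2 (fun i => rfl) h3
  set ξ : S → ℂ := fun i => w' i with hξ
  have hφd : HasFDerivAt (fun x => φ (u0, x))
      (fderiv ℂ (fun x => φ (u0, x)) (fun i : S => F u0 i)) (fun i : S => F u0 i) :=
    (hφa' _ (mem_ball_self hr)).differentiableAt.hasFDerivAt
  have hxd : HasDerivAt (fun s => fun i : S => w s i) ξ 0 := hasDerivAt_pi.2 fun i => hwi i
  have hfd : fderiv ℂ (fun x => φ (u0, x)) (fun i : S => F u0 i) ξ = w' := by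
    have h1 : HasDerivAt ((fun x => φ (u0, x)) ∘ (fun s => fun i : S => w s i))
        (fderiv ℂ (fun x => φ (u0, x)) (fun i : S => F u0 i) ξ) 0 := by
      apply HasFDerivAt.comp_hasDerivAt (0 : ℂ) ?_ hxd
      simp only [hw0]
      exact hφd
    have h2 : HasDerivAt w (fderiv ℂ (fun x => φ (u0, x)) (fun i : S => F u0 i) ξ) 0 := by
      refine h1.congr_of_eventuallyEq ?_
      filter_upwards [hpath] with s hs
      exact hs.symm
    exact h2.unique hwd'
  refine ⟨ξ, ?_, ?_, ?_⟩
  · rw [hfd]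
    have := hw'S ap
    rw [Pi.single_eq_same] at this
    exact this
  · intro i hi hne
    rw [hfd]
    have := hw'S ⟨i, hS0' p hi⟩
    rw [Pi.single_eq_of_ne] at this
    · exact this
    · intro h
      exact hne (congrArg Subtype.val h)
  · intro A hA m hm
    rw [hfd]
    have hAi : Ind (evC E) U (fun u (i : A) => F u i) := by
      intro Q hQ
      have hinc : A ⊆ S0 p := fun i hi => (hA hi).1
      have h1 := h0 p (MvPolynomial.rename (Set.inclusion hinc) Q) (by
        intro u hu
        have h2 := hQ u hu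
        rw [evM_evC] at h2 ⊢
        rw [MvPolynomial.eval_rename]
        exact h2)
      exact MvPolynomial.rename_injective _ (Set.inclusion_injective hinc) (by rw [h1, map_zero])
    set q : {q : Set ι × ι // Ind (evC E) U (fun u (i : q.1) => F u i) ∧
      ¬ Ind (evC E) U (fun u (o : Option q.1) => o.elim (F u q.2) (fun i : q.1 => F u i))} :=
      ⟨(A, m), hAi, hm⟩ with hq
    have hPd0 : (derivative (P q)).eval₂ (evM (evC E) u0 (fun i : A => F u0 i)) (F u0 m) ≠ 0 :=
      hgen (Sum.inr q)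
    have hPv0 := hPv q
    -- the relation as a multivariate polynomial
    set Q : MvPolynomial ι ℂ := (P q).eval₂
      (MvPolynomial.rename (Subtype.val : A → ι) : MvPolynomial A ℂ →ₐ[ℂ] MvPolynomial ι ℂ)
      (MvPolynomial.X (m : ι)) with hQdef
    have hQe : ∀ (u : E) (y : ι → ℂ), evM (evC E) u y Q
        = (P q).eval₂ (evM (evC E) u (fun i : A => y i)) (y m) := by
      intro u y
      rw [hQdef]
      have := Polynomial.hom_eval₂ (P q)
        ((MvPolynomial.rename (Subtype.val : A → ι) :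
          MvPolynomial A ℂ →ₐ[ℂ] MvPolynomial ι ℂ) : MvPolynomial A ℂ →+* MvPolynomial ι ℂ)
        (evM (evC E) u y) (MvPolynomial.X (m : ι))
      rw [evM_X] at this
      refine this.trans ?_
      have h3 : (evM (evC E) u y).comp ((MvPolynomial.rename (Subtype.val : A → ι) :
          MvPolynomial A ℂ →ₐ[ℂ] MvPolynomial ι ℂ) : MvPolynomial A ℂ →+* MvPolynomial ι ℂ)
          = evM (evC E) u (fun i : A => y i) := by
        apply MvPolynomial.ringHom_ext
        · intro c; simp
        · intro i; simp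
      rw [h3]
    have hQU : ∀ u ∈ U, evM (evC E) u (F u) Q = 0 := fun u hu => by
      rw [hQe]; exact hPv0 u hu
    have hzero : (fun s => (P q).eval₂ (evM (evC E) u0 (fun i : A => w s i)) (w s m))
        =ᶠ[𝓝 0] fun _ => (0 : ℂ) := by
      filter_upwards [hrel] with s hs
      rw [← hQe]
      exact hs Q hQU
    have hAz : ∀ i : A, HasDerivAt (fun s => w s i) 0 0 := by
      intro i
      have h1 := hwi i
      have h2 : w' i = 0 := by
        have := hw'S ⟨i, hS0' p (hA i.2).1⟩
        rw [Pi.single_eq_of_ne] at this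
        · exact this
        · intro h
          exact (hA i.2).2 (congrArg Subtype.val h)
      rwa [h2] at h1
    have h1 := hasDerivAt_eval₂ (f := fun s => fun i : A => w s i) hAz (hwi m) u0 (P q)
    have h2 : HasDerivAt (fun _ : ℂ => (0 : ℂ))
        ((derivative (P q)).eval₂ (evM (evC E) u0 (fun i : A => w 0 i)) (w 0 m) * w' m) 0 :=
      h1.congr_of_eventuallyEq hzero.symm
    have h3 := h2.unique (hasDerivAt_const (0 : ℂ) (0 : ℂ))
    rw [hw0] at h3
    exact (mul_eq_zero.1 h3).resolve_left hPd0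

end

end Vale.Agent.P097.H365.F5
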