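import Vale.Agent.P097.H365.F5.Fam2
import Vale.Agent.P097.H407.Hol

/-!
# F5a: the two words stay closed over the patch
-/

namespace Vale.Agent.P097.H365.F5

open Complex Metric Set Filter Topology
open Vale.Agent.P097.H650 (Refl SolAt evC evM evM_evC D1 CoefDiff)

set_option linter.unusedSectionVars false

section

variable {n n' : ℕ} {τ τ' : Type} [Fintype τ] [Fintype τ'] {i0 i1 : ℕ → τ} {i0' i1' : ℕ → τ'}
  {Φ : ℕ → τ → MvPolynomial τ ℂ} {Φ' : ℕ → τ' → MvPolynomial τ' ℂ}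

/-- Generators of both words. -/
noncomputable def both (W : Rz n i0 i1 Φ) (W' : Rz n' i0' i1' Φ') (l : ℂ × ℂ) :
    Gen n τ ⊕ Gen n' τ' → ℂ := Sum.elim (W.Y l) (W'.Y l)

theorem eval_elim {α β : Type} (y : α → ℂ) (y' : β → ℂ) (Q : MvPolynomial α ℂ)
    (Q' : MvPolynomial β ℂ) :
    MvPolynomial.eval (Sum.elim y y') (MvPolynomial.rename Sum.inl Q) = MvPolynomial.eval y Q ∧
    MvPolynomial.eval (Sum.elim y y') (MvPolynomial.rename Sum.inr Q')
      = MvPolynomial.eval y' Q' := by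
  rw [MvPolynomial.eval_rename, MvPolynomial.eval_rename]
  exact ⟨rfl, rfl⟩

theorem solAt_sum {q : ℂ × ℂ → Gen n τ → MvPolynomial (Gen n τ) ℂ}
    {q' : ℂ × ℂ → Gen n' τ' → MvPolynomial (Gen n' τ') ℂ} {Y : ℂ × ℂ → Gen n τ → ℂ}
    {Y' : ℂ × ℂ → Gen n' τ' → ℂ} {l e : ℂ × ℂ} (h : SolAt (evC (ℂ × ℂ)) q Y l e)
    (h' : SolAt (evC (ℂ × ℂ)) q' Y' l e) :
    SolAt (evC (ℂ × ℂ)) (fun e => Sum.elim (fun i => MvPolynomial.rename Sum.inl (q e i))
      (fun i => MvPolynomial.rename Sum.inr (q' e i))) (fun l => Sum.elim (Y l) (Y' l)) l e := by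
  rintro (i | i)
  · have h1 := h i
    refine ⟨h1.1, ?_⟩
    rw [evM_evC] at h1 ⊢
    exact h1.2.trans (eval_elim (Y l) (Y' l) (q e i) 0).1.symm
  · have h1 := h' i
    refine ⟨h1.1, ?_⟩
    rw [evM_evC] at h1 ⊢
    exact h1.2.trans (eval_elim (Y l) (Y' l) 0 (q' e i)).2.symm

theorem analyticOnNhd_of_solAt {α : Type} [Fintype α] {q : ℂ × ℂ → α → MvPolynomial α ℂ}
    {Y : ℂ × ℂ → α → ℂ} {V : Set (ℂ × ℂ)} (hV : IsOpen V)
    (h : ∀ l ∈ V, ∀ e, SolAt (evC (ℂ × ℂ)) q Y l e) : AnalyticOnNhd ℂ Y V := by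
  apply Hol.analyticOnNhd_of_differentiableOn hV
  rw [differentiableOn_pi]
  exact fun i l hl => (h l hl 0 i).1.differentiableWithinAt

theorem coefDiff_evC (N : Set (ℂ × ℂ)) : CoefDiff (evC (ℂ × ℂ)) N := by
  intro c e
  refine ⟨0, fun v _ => ⟨differentiableAt_const c, ?_⟩⟩
  have h : HasFDerivAt (evC (ℂ × ℂ) c) (0 : ℂ × ℂ →L[ℂ] ℂ) v := hasFDerivAt_const c v
  rw [h.fderiv]
  simp

/-- **Closedness over the patch.** -/
theorem closed_family (W : Rz n i0 i1 Φ) (W' : Rz n' i0' i1' Φ') (hV : W'.V = W.V)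
    {l1 : ℂ × ℂ} (hl1 : l1 ∈ W.V)
    (hout : ∀ l ∈ W.V, exp (I * W'.al n' l) = exp (I * W.al n l) ∧ W'.p n' l = W.p n l)
    {δ δ' : ℕ → ℝ} {T : ℕ → (τ → ℂ) → ℂ} {T' : ℕ → (τ' → ℂ) → ℂ}
    {Z : ℕ → ℂ × (τ → ℂ) → τ → ℂ} {Z' : ℕ → ℂ × (τ' → ℂ) → τ' → ℂ}
    (hB : ∀ k < n, BFam (Φ k) (i0 k) (i1 k) (W.D k) (W.Z k) (mid W.al k l1) (δ k) (T k) (Z k))
    (hB' : ∀ k < n', BFam (Φ' k) (i0' k) (i1' k) (W'.D k) (W'.Z k) (mid W'.al k l1) (δ' k)
      (T' k) (Z' k))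
    {X : Type} [NormedAddCommGroup X] [NormedSpace ℂ X] [CompleteSpace X]
    {x0 : X} {φ : X → (Gen n τ ⊕ Gen n' τ') → ℂ} (hφ : AnalyticAt ℂ φ x0)
    (hφ0 : φ x0 = both W W' l1)
    (hrel : ∀ᶠ x in 𝓝 x0, ∀ Q : MvPolynomial (Gen n τ ⊕ Gen n' τ') ℂ,
      (∀ l ∈ W.V, MvPolynomial.eval (both W W' l) Q = 0) → MvPolynomial.eval (φ x) Q = 0) :
    ∃ (AL P AL' P' : ℕ → (ℂ × ℂ) × X → ℂ) (m0 : ℂ),
      (∀ k ≤ n, AnalyticAt ℂ (AL k) (l1, x0) ∧ AnalyticAt ℂ (P k) (l1, x0) ∧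
        AL k (l1, x0) = W.al k l1 ∧ P k (l1, x0) = W.p k l1) ∧
      (∀ q, AL 0 q = q.1.1 ∧ P 0 q = q.1.2) ∧
      (∀ k < n, ∀ᶠ q in 𝓝 (l1, x0), Refl
        (fun ψ => mir i1 Z (fun x i => φ x (Sum.inl i)) k (ψ, q.2)) (AL k q) (P k q)
        (AL (k + 1) q) (P (k + 1) q)) ∧
      (∀ k ≤ n', AnalyticAt ℂ (AL' k) (l1, x0) ∧ AnalyticAt ℂ (P' k) (l1, x0) ∧
        AL' k (l1, x0) = W'.al k l1 ∧ P' k (l1, x0) = W'.p k l1) ∧
      (∀ q, AL' 0 q = q.1.1 ∧ P' 0 q = q.1.2) ∧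
      (∀ k < n', ∀ᶠ q in 𝓝 (l1, x0), Refl
        (fun ψ => mir i1' Z' (fun x i => φ x (Sum.inr i)) k (ψ, q.2)) (AL' k q) (P' k q)
        (AL' (k + 1) q) (P' (k + 1) q)) ∧
      exp (I * m0) = 1 ∧
      ∀ᶠ q in 𝓝 (l1, x0), AL' n' q = AL n q + m0 ∧ P' n' q = P n q := by
  have hl1' : l1 ∈ W'.V := by rw [hV]; exact hl1
  set φN : X → Gen n τ → ℂ := fun x i => φ x (Sum.inl i) with hφN
  set φS : X → Gen n' τ' → ℂ := fun x i => φ x (Sum.inr i) with hφS
  have hφi : ∀ i, AnalyticAt ℂ (fun x => φ x i) x0 := fun i =>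
    ((ContinuousLinearMap.proj (R := ℂ) (φ := fun _ : Gen n τ ⊕ Gen n' τ' => ℂ) i).analyticAt
      _).fun_comp hφ
  have hφNa : AnalyticAt ℂ φN x0 := AnalyticAt.pi fun i => hφi _
  have hφSa : AnalyticAt ℂ φS x0 := AnalyticAt.pi fun i => hφi _
  have hφN0 : φN x0 = W.Y l1 := by
    funext i; simp only [hφN, hφ0]; rfl
  have hφS0 : φS x0 = W'.Y l1 := by
    funext i; simp only [hφS, hφ0]; rfl
  have hsplit : ∀ x, Sum.elim (φN x) (φS x) = φ x := fun x => by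
    funext i
    rcases i with i | i <;> rfl
  have hrelN : ∀ᶠ x in 𝓝 x0, RelY W (φN x) := by
    filter_upwards [hrel] with x hx Q hQ
    have h1 := hx (MvPolynomial.rename Sum.inl Q) (fun l hl => by
      rw [both, (eval_elim (W.Y l) (W'.Y l) Q 0).1]; exact hQ l hl)
    rw [← hsplit x, (eval_elim (φN x) (φS x) Q 0).1] at h1
    exact h1
  have hrelS : ∀ᶠ x in 𝓝 x0, RelY W' (φS x) := by
    filter_upwards [hrel] with x hx Q hQ
    have h1 := hx (MvPolynomial.rename Sum.inr Q) (fun l hl => by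
      rw [both, (eval_elim (W.Y l) (W'.Y l) 0 Q).2]; exact hQ l (by rw [hV]; exact hl))
    rw [← hsplit x, (eval_elim (φN x) (φS x) 0 Q).2] at h1
    exact h1
  obtain ⟨AL, P, hA, h0, hR, ⟨r, hr, hreal⟩, hbase⟩ := wordFamily W hl1 hB hφNa hφN0 hrelN
  obtain ⟨AL', P', hA', h0', hR', ⟨r', hr', hreal'⟩, hbase'⟩ :=
    wordFamily W' hl1' hB' hφSa hφS0 hrelS
  obtain ⟨q, hq⟩ := exists_system n i0 i1 Φ
  obtain ⟨q', hq'⟩ := exists_system n' i0' i1' Φ'
  set m0 : ℂ := W'.al n' l1 - W.al n l1 with hm0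
  have hm0e : exp (I * m0) = 1 := by
    have h1 : exp (I * m0) * exp (I * W.al n l1) = exp (I * W'.al n' l1) := by
      rw [← Complex.exp_add]; congr 1; rw [hm0]; ring
    rw [(hout l1 hl1).1] at h1
    exact mul_right_cancel₀ (Complex.exp_ne_zero (I * W.al n l1)) (by rw [h1, one_mul])
  refine ⟨AL, P, AL', P', m0, hA, h0, hR, hA', h0', hR', hm0e, ?_⟩
  -- the first line
  have la0 : ContinuousAt (fun x => la W l1 0 (φN x)) x0 ∧ la W l1 0 (φN x0) = l1.1 := by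
    have h1 := la_cont W l1 (Nat.zero_le n)
    rw [← hφN0] at h1
    exact ⟨ContinuousAt.comp (g := la W l1 0) h1.1 hφNa.continuousAt,
      h1.2.trans (W.b l1 hl1).1⟩
  have la0' : ContinuousAt (fun x => la W' l1 0 (φS x)) x0 ∧ la W' l1 0 (φS x0) = l1.1 := by
    have h1 := la_cont W' l1 (Nat.zero_le n')
    rw [← hφS0] at h1
    exact ⟨ContinuousAt.comp (g := la W' l1 0) h1.1 hφSa.continuousAt,
      h1.2.trans (W'.b l1 hl1').1⟩
  have hfirst : ∀ᶠ x in 𝓝 x0, la W' l1 0 (φS x) = la W l1 0 (φN x) ∧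
      yl 2 0 (φS x) = yl 2 0 (φN x) := by
    have h1 := eventually_zero_of_exp (f := fun x => la W' l1 0 (φS x) - la W l1 0 (φN x))
      (la0'.1.sub la0.1) (by rw [la0.2, la0'.2, sub_self])
    filter_upwards [h1, hrel, hrelN, hrelS] with x h2 h3 h4 h5
    have e0 : yl 0 0 (φS x) = yl 0 0 (φN x) := by
      have h6 := h3 (MvPolynomial.X (Sum.inr (Sum.inr (Sum.inr (⟨0, by omega⟩, 0))))
        - MvPolynomial.X (Sum.inl (Sum.inr (Sum.inr (⟨0, by omega⟩, 0))))) (fun l hl => by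
          simp only [map_sub, MvPolynomial.eval_X]
          show exp (I * W'.al 0 l) - exp (I * W.al 0 l) = 0
          rw [(W.b l hl).1, (W'.b l (by rw [hV]; exact hl)).1, sub_self])
      simp only [map_sub, MvPolynomial.eval_X] at h6
      simp only [yl, Nat.zero_le, dif_pos]
      exact sub_eq_zero.1 h6
    have e2 : yl 2 0 (φS x) = yl 2 0 (φN x) := by
      have h6 := h3 (MvPolynomial.X (Sum.inr (Sum.inr (Sum.inr (⟨0, by omega⟩, 2))))
        - MvPolynomial.X (Sum.inl (Sum.inr (Sum.inr (⟨0, by omega⟩, 2))))) (fun l hl => by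
          simp only [map_sub, MvPolynomial.eval_X]
          show W'.p 0 l - W.p 0 l = 0
          rw [(W.b l hl).2, (W'.b l (by rw [hV]; exact hl)).2, sub_self])
      simp only [map_sub, MvPolynomial.eval_X] at h6
      simp only [yl, Nat.zero_le, dif_pos]
      exact sub_eq_zero.1 h6
    refine ⟨sub_eq_zero.1 (h2 ?_), e2⟩
    have hne : yl 0 0 (φN x) ≠ 0 := fun h => by
      have := h4.r2 (Nat.zero_le n)
      rw [h, zero_mul] at this
      exact zero_ne_one this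
    have h7 : exp (I * (la W' l1 0 (φS x) - la W l1 0 (φN x))) * exp (I * la W l1 0 (φN x))
        = exp (I * la W' l1 0 (φS x)) := by
      rw [← Complex.exp_add]; congr 1; ring
    rw [exp_la W l1 hne, exp_la W' l1 (by rw [e0]; exact hne), e0] at h7
    exact mul_right_cancel₀ hne (by rw [h7, one_mul])
  set ρ := min r r' with hρ
  have hρp : 0 < ρ := lt_min hr hr'
  have hbmem : ∀ᶠ x in 𝓝 x0, (la W l1 0 (φN x), yl 2 0 (φN x)) ∈ ball l1 ρ := by
    have h3 : ContinuousAt (fun x => yl 2 0 (φN x)) x0 :=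
      ContinuousAt.comp (g := yl 2 0) (continuous_yl 2 0).continuousAt hφNa.continuousAt
    refine (la0.1.prodMk h3).preimage_mem_nhds ?_
    have h5 : (la W l1 0 (φN x0), yl 2 0 (φN x0)) = l1 := by
      rw [la0.2, hφN0, W.yl2 (Nat.zero_le n), (W.b l1 hl1).2]
    rw [h5]
    exact ball_mem_nhds _ hρp
  have hxr : ∀ᶠ x in 𝓝 x0, x ∈ ball x0 ρ := ball_mem_nhds _ hρp
  -- relations on the deformed words
  have hmain : ∀ᶠ x in 𝓝 x0, ∀ l ∈ ball l1 ρ,
      exp (I * AL' n' (l, x)) = exp (I * AL n (l, x)) ∧ P' n' (l, x) = P n (l, x) := by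
    filter_upwards [hrel, hbase, hbase', hfirst, hbmem, hxr] with x x1 x2 x3 x4 x5 x6
    obtain ⟨Wx, wV, wZ, wal, wp⟩ := hreal x (ball_subset_ball (min_le_left _ _) x6)
    obtain ⟨Wx', wV', wZ', wal', wp'⟩ := hreal' x (ball_subset_ball (min_le_right _ _) x6)
    have hs1 : ball l1 ρ ⊆ Wx.V := by rw [wV]; exact ball_subset_ball (min_le_left _ _)
    have hs2 : ball l1 ρ ⊆ Wx'.V := by rw [wV']; exact ball_subset_ball (min_le_right _ _)
    have hG : ∀ l ∈ ball l1 ρ, ∀ e, SolAt (evC (ℂ × ℂ))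
        (fun e => Sum.elim (fun i => MvPolynomial.rename Sum.inl (q e i))
          (fun i => MvPolynomial.rename Sum.inr (q' e i)))
        (fun l => Sum.elim (Wx.Y l) (Wx'.Y l)) l e := fun l hl e =>
      solAt_sum (hq Wx l (hs1 hl) e) (hq' Wx' l (hs2 hl) e)
    have hF : ∀ l ∈ W.V, ∀ e, SolAt (evC (ℂ × ℂ))
        (fun e => Sum.elim (fun i => MvPolynomial.rename Sum.inl (q e i))
          (fun i => MvPolynomial.rename Sum.inr (q' e i)))
        (fun l => Sum.elim (W.Y l) (W'.Y l)) l e := fun l hl e =>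
      solAt_sum (hq W l hl e) (hq' W' l (by rw [hV]; exact hl) e)
    have hbx : Sum.elim (Wx.Y (la W l1 0 (φN x), yl 2 0 (φN x)))
        (Wx'.Y (la W l1 0 (φN x), yl 2 0 (φN x))) = φ x := by
      have h1 : Wx.Y (la W l1 0 (φN x), yl 2 0 (φN x)) = φN x := by
        refine Eq.trans ?_ x2
        simp only [Rz.Y, wZ, wal, wp]
      have h2 : Wx'.Y (la W l1 0 (φN x), yl 2 0 (φN x)) = φS x := by
        refine Eq.trans ?_ x3
        rw [x4.1, x4.2]
        simp only [Rz.Y, wZ', wal', wp']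
      rw [h1, h2, hsplit]
    have htr := fun Q hQ => H650.transfer (N := univ) (U := W.V) (V := ball l1 ρ)
      (coefDiff_evC univ) (fun c v _ => analyticAt_const) (subset_univ _) (subset_univ _) W.oV
      isOpen_ball (convex_ball l1 ρ).isPreconnected _ (analyticOnNhd_of_solAt isOpen_ball hG) hF hG
      x5 (fun Q hQ => by
        rw [evM_evC]
        show MvPolynomial.eval (Sum.elim (Wx.Y (la W l1 0 (φN x), yl 2 0 (φN x)))
          (Wx'.Y (la W l1 0 (φN x), yl 2 0 (φN x)))) Q = 0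
        rw [hbx]
        apply x1
        intro l hl
        have := hQ l hl
        rw [evM_evC] at this
        exact this) Q hQ
    intro l hl
    have f1 := htr (MvPolynomial.X (Sum.inr (Sum.inr (Sum.inr (⟨n', by omega⟩, 0))))
        - MvPolynomial.X (Sum.inl (Sum.inr (Sum.inr (⟨n, by omega⟩, 0))))) (fun l hl => by
          rw [evM_evC]
          simp only [map_sub, MvPolynomial.eval_X]
          show exp (I * W'.al n' l) - exp (I * W.al n l) = 0
          rw [(hout l hl).1, sub_self]) l hl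
    have f2 := htr (MvPolynomial.X (Sum.inr (Sum.inr (Sum.inr (⟨n', by omega⟩, 2))))
        - MvPolynomial.X (Sum.inl (Sum.inr (Sum.inr (⟨n, by omega⟩, 2))))) (fun l hl => by
          rw [evM_evC]
          simp only [map_sub, MvPolynomial.eval_X]
          show W'.p n' l - W.p n l = 0
          rw [(hout l hl).2, sub_self]) l hl
    rw [evM_evC] at f1 f2
    simp only [map_sub, MvPolynomial.eval_X] at f1 f2
    have g1 : exp (I * Wx'.al n' l) - exp (I * Wx.al n l) = 0 := f1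
    have g2 : Wx'.p n' l - Wx.p n l = 0 := f2
    rw [wal, wal'] at g1
    rw [wp, wp'] at g2
    exact ⟨sub_eq_zero.1 g1, sub_eq_zero.1 g2⟩
  -- conclusion
  have hz := eventually_zero_of_exp
    (f := fun q : (ℂ × ℂ) × X => AL' n' q - AL n q - m0) (x0 := (l1, x0))
    (((hA' n' le_rfl).1.continuousAt.sub (hA n le_rfl).1.continuousAt).sub continuousAt_const)
    (by rw [(hA' n' le_rfl).2.2.1, (hA n le_rfl).2.2.1, hm0]; ring)
  have hp1 : ∀ᶠ q in 𝓝 ((l1, x0) : (ℂ × ℂ) × X), q.1 ∈ ball l1 ρ := by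
    have h1 : ContinuousAt (fun q : (ℂ × ℂ) × X => q.1) (l1, x0) := continuousAt_fst
    exact h1.preimage_mem_nhds (ball_mem_nhds l1 hρp)
  have hp2 : ∀ᶠ q in 𝓝 ((l1, x0) : (ℂ × ℂ) × X), ∀ l ∈ ball l1 ρ,
      exp (I * AL' n' (l, q.2)) = exp (I * AL n (l, q.2)) ∧ P' n' (l, q.2) = P n (l, q.2) := by
    have h1 : ContinuousAt (fun q : (ℂ × ℂ) × X => q.2) (l1, x0) := continuousAt_snd
    exact h1.eventually hmain
  filter_upwards [hz, hp1, hp2] with v hv1 hv2 hv3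
  obtain ⟨h1, h2⟩ := hv3 v.1 hv2
  refine ⟨?_, h2⟩
  have h3 : exp (I * (AL' n' v - AL n v - m0)) = 1 := by
    have h4 : exp (I * (AL' n' v - AL n v - m0)) * (exp (I * AL n v) * exp (I * m0))
        = exp (I * AL' n' v) := by
      rw [← Complex.exp_add, ← Complex.exp_add]; congr 1; ring
    rw [hm0e, mul_one] at h4
    have h5 : exp (I * AL' n' v) = exp (I * AL n v) := h1
    rw [h5] at h4
    exact mul_right_cancel₀ (Complex.exp_ne_zero (I * AL n v)) (by rw [h4, one_mul])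
  have h6 := hv1 h3
  linear_combination h6

end

end Vale.Agent.P097.H365.F5
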