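import Vale.Agent.P097.H365.F5.Defs

/-!
# F5a: the state ring of a word is closed under differentiation by the first line
-/

namespace Vale.Agent.P097.H365.F5

open Complex Metric Set Filter Topology
open Vale.Agent.P097.H650 (Refl SolAt evC evM evM_evC)

/-- Derivative of a polynomial along a polynomial system. -/
theorem exists_dl {τ : Type} [Fintype τ] (Φ : τ → MvPolynomial τ ℂ) (Q : MvPolynomial τ ℂ) :
    ∃ Q' : MvPolynomial τ ℂ, ∀ (i0 i1 : τ) (D : Set ℂ) (H : ℂ → ℂ) (z : ℂ → τ → ℂ),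
      PState Φ i0 i1 D H z → ∀ ψ ∈ D,
        HasDerivAt (fun s => MvPolynomial.eval (z s) Q) (MvPolynomial.eval (z ψ) Q') ψ := by
  induction Q using MvPolynomial.induction_on with
  | C c =>
    refine ⟨0, fun i0 i1 D H z _ ψ _ => ?_⟩
    simpa using hasDerivAt_const ψ c
  | add p q hp hq =>
    obtain ⟨p', hp'⟩ := hp
    obtain ⟨q', hq'⟩ := hq
    refine ⟨p' + q', fun i0 i1 D H z hz ψ hψ => ?_⟩
    simpa using (hp' i0 i1 D H z hz ψ hψ).fun_add (hq' i0 i1 D H z hz ψ hψ)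
  | mul_X p i hp =>
    obtain ⟨p', hp'⟩ := hp
    refine ⟨p' * MvPolynomial.X i + p * Φ i, fun i0 i1 D H z hz ψ hψ => ?_⟩
    have h1 := (hp' i0 i1 D H z hz ψ hψ).fun_mul (hasDerivAt_pi.1 (hz.der ψ hψ) i)
    simpa using h1

section

variable {n : ℕ} {τ : Type} [Fintype τ]

/-- Generators of the state ring of a word with `n` letters. -/
abbrev Gen (n : ℕ) (τ : Type) : Type := (Fin n × τ) ⊕ ((Fin n ⊕ Fin n) ⊕ (Fin (n + 1) × Fin 3))

/-- A word in the coordinates of its first line. -/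
structure Rz (n : ℕ) {τ : Type} [Fintype τ] (i0 i1 : ℕ → τ) (Φ : ℕ → τ → MvPolynomial τ ℂ) where
  V : Set (ℂ × ℂ)
  D : ℕ → Set ℂ
  Z : ℕ → ℂ → τ → ℂ
  al : ℕ → ℂ × ℂ → ℂ
  p : ℕ → ℂ × ℂ → ℂ
  oV : IsOpen V
  oD : ∀ k < n, IsOpen (D k)
  st : ∀ k < n, PState (Φ k) (i0 k) (i1 k) (D k) (fun ψ => Z k ψ (i1 k)) (Z k)
  w : WordOn n V (fun k ψ => Z k ψ (i1 k)) D al p
  b : ∀ l ∈ V, al 0 l = l.1 ∧ p 0 l = l.2

/-- Values of the generators. -/
noncomputable def gv (n : ℕ) (i1 : ℕ → τ) (Z : ℕ → ℂ → τ → ℂ) (al p : ℕ → ℂ × ℂ → ℂ)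
    (l : ℂ × ℂ) : Gen n τ → ℂ :=
  Sum.elim (fun q => Z q.1 (mid al q.1 l) q.2)
    (Sum.elim (Sum.elim (fun k => exp (-(I * mid al k l)))
      (fun k => ((Z k (mid al k l) (i1 k) + deriv (deriv fun ψ => Z k ψ (i1 k)) (mid al k l))
        * sin (trn al k l))⁻¹))
    (fun q => ![exp (I * al q.1 l), exp (-(I * al q.1 l)), p q.1 l] q.2))

variable {i0 i1 : ℕ → τ} {Φ : ℕ → τ → MvPolynomial τ ℂ}

/-- Values of the generators on a realization. -/
noncomputable def Rz.Y (W : Rz n i0 i1 Φ) (l : ℂ × ℂ) : Gen n τ → ℂ := gv n i1 W.Z W.al W.p l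

/-- `g` is a polynomial in the generators. -/
def IsP (g : Rz n i0 i1 Φ → ℂ × ℂ → ℂ) : Prop :=
  ∃ Q : MvPolynomial (Gen n τ) ℂ, ∀ W, ∀ l ∈ W.V, g W l = MvPolynomial.eval (W.Y l) Q

/-- `g` is differentiable and its derivative in the direction `e` is a polynomial. -/
def IsD (e : ℂ × ℂ) (g : Rz n i0 i1 Φ → ℂ × ℂ → ℂ) : Prop :=
  (∀ W, ∀ l ∈ W.V, DifferentiableAt ℂ (g W) l) ∧ IsP fun W l => fderiv ℂ (g W) l e

theorem IsP.congr {f g : Rz n i0 i1 Φ → ℂ × ℂ → ℂ} (hf : IsP f)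
    (h : ∀ W, ∀ l ∈ W.V, g W l = f W l) : IsP g := by
  obtain ⟨Q, hQ⟩ := hf
  exact ⟨Q, fun W l hl => (h W l hl).trans (hQ W l hl)⟩

theorem IsP.const (c : ℂ) : IsP (fun (_ : Rz n i0 i1 Φ) _ => c) :=
  ⟨MvPolynomial.C c, fun W l _ => by simp⟩

theorem IsP.add {f g : Rz n i0 i1 Φ → ℂ × ℂ → ℂ} (hf : IsP f) (hg : IsP g) :
    IsP fun W l => f W l + g W l := by
  obtain ⟨Q, hQ⟩ := hf
  obtain ⟨Q', hQ'⟩ := hg
  exact ⟨Q + Q', fun W l hl => by simp [hQ W l hl, hQ' W l hl]⟩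

theorem IsP.mul {f g : Rz n i0 i1 Φ → ℂ × ℂ → ℂ} (hf : IsP f) (hg : IsP g) :
    IsP fun W l => f W l * g W l := by
  obtain ⟨Q, hQ⟩ := hf
  obtain ⟨Q', hQ'⟩ := hg
  exact ⟨Q * Q', fun W l hl => by simp [hQ W l hl, hQ' W l hl]⟩

theorem IsP.neg {f : Rz n i0 i1 Φ → ℂ × ℂ → ℂ} (hf : IsP f) : IsP fun W l => -f W l := by
  obtain ⟨Q, hQ⟩ := hf
  exact ⟨-Q, fun W l hl => by simp [hQ W l hl]⟩

theorem IsP.sub {f g : Rz n i0 i1 Φ → ℂ × ℂ → ℂ} (hf : IsP f) (hg : IsP g) :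
    IsP fun W l => f W l - g W l := by
  obtain ⟨Q, hQ⟩ := hf
  obtain ⟨Q', hQ'⟩ := hg
  exact ⟨Q - Q', fun W l hl => by simp [hQ W l hl, hQ' W l hl]⟩

theorem isP_gen (i : Gen n τ) : IsP (fun (W : Rz n i0 i1 Φ) l => W.Y l i) :=
  ⟨MvPolynomial.X i, fun W l _ => by simp⟩

theorem isP_st {k : ℕ} (hk : k < n) (Q : MvPolynomial τ ℂ) :
    IsP (fun (W : Rz n i0 i1 Φ) l => MvPolynomial.eval (W.Z k (mid W.al k l)) Q) := by
  refine ⟨MvPolynomial.rename (fun i => Sum.inl ((⟨k, hk⟩ : Fin n), i)) Q, fun W l _ => ?_⟩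
  rw [MvPolynomial.eval_rename]
  rfl

theorem isP_z {k : ℕ} (hk : k < n) (i : τ) :
    IsP (fun (W : Rz n i0 i1 Φ) l => W.Z k (mid W.al k l) i) :=
  (isP_gen (Sum.inl ((⟨k, hk⟩ : Fin n), i))).congr fun _ _ _ => rfl

theorem isP_expm {k : ℕ} (hk : k < n) :
    IsP (fun (W : Rz n i0 i1 Φ) l => exp (-(I * mid W.al k l))) :=
  (isP_gen (Sum.inr (Sum.inl (Sum.inl (⟨k, hk⟩ : Fin n))))).congr fun _ _ _ => rfl

theorem isP_rs {k : ℕ} (hk : k < n) :
    IsP (fun (W : Rz n i0 i1 Φ) l => ((W.Z k (mid W.al k l) (i1 k)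
      + deriv (deriv fun ψ => W.Z k ψ (i1 k)) (mid W.al k l)) * sin (trn W.al k l))⁻¹) :=
  (isP_gen (Sum.inr (Sum.inl (Sum.inr (⟨k, hk⟩ : Fin n))))).congr fun _ _ _ => rfl

theorem isP_ea {k : ℕ} (hk : k ≤ n) :
    IsP (fun (W : Rz n i0 i1 Φ) l => exp (I * W.al k l)) :=
  (isP_gen (Sum.inr (Sum.inr ((⟨k, by omega⟩ : Fin (n + 1)), 0)))).congr fun _ _ _ => rfl

theorem isP_eb {k : ℕ} (hk : k ≤ n) :
    IsP (fun (W : Rz n i0 i1 Φ) l => exp (-(I * W.al k l))) :=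
  (isP_gen (Sum.inr (Sum.inr ((⟨k, by omega⟩ : Fin (n + 1)), 1)))).congr fun _ _ _ => rfl

theorem isP_ep {k : ℕ} (hk : k < n) :
    IsP (fun (W : Rz n i0 i1 Φ) l => exp (I * mid W.al k l)) :=
  (isP_z hk (i0 k)).congr fun W l hl => ((W.st k hk).hE _ (W.w.mem k hk l hl)).symm

theorem isP_eid {k : ℕ} (hk : k < n) :
    IsP (fun (W : Rz n i0 i1 Φ) l => exp (trn W.al k l * I)) :=
  ((isP_ea (k := k + 1) (by omega)).mul (isP_expm hk)).congr fun W l _ => by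
    rw [← Complex.exp_add]
    congr 1
    simp only [trn, mid]; ring

theorem isP_emd {k : ℕ} (hk : k < n) :
    IsP (fun (W : Rz n i0 i1 Φ) l => exp (-trn W.al k l * I)) :=
  ((isP_eb (k := k + 1) (by omega)).mul (isP_ep hk)).congr fun W l _ => by
    rw [← Complex.exp_add]
    congr 1
    simp only [trn, mid]; ring

theorem isP_cos {k : ℕ} (hk : k < n) :
    IsP (fun (W : Rz n i0 i1 Φ) l => cos (trn W.al k l)) :=
  (((isP_eid hk).add (isP_emd hk)).mul (IsP.const (1 / 2))).congr fun W l _ => by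
    rw [Complex.cos]; ring

theorem isP_sin {k : ℕ} (hk : k < n) :
    IsP (fun (W : Rz n i0 i1 Φ) l => sin (trn W.al k l)) :=
  (((isP_emd hk).sub (isP_eid hk)).mul (IsP.const (I / 2))).congr fun W l _ => by
    rw [Complex.sin]; ring

theorem isP_H {k : ℕ} (hk : k < n) :
    IsP (fun (W : Rz n i0 i1 Φ) l => (fun ψ => W.Z k ψ (i1 k)) (mid W.al k l)) :=
  isP_z hk (i1 k)

theorem Rz.dH (W : Rz n i0 i1 Φ) {k : ℕ} (hk : k < n) {ψ : ℂ} (hψ : ψ ∈ W.D k) :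
    deriv (fun ψ => W.Z k ψ (i1 k)) ψ = MvPolynomial.eval (W.Z k ψ) (Φ k (i1 k)) :=
  (hasDerivAt_pi.1 ((W.st k hk).der ψ hψ) (i1 k)).deriv

theorem exists_ddH (k : ℕ) (hk : k < n) : ∃ Q : MvPolynomial τ ℂ, ∀ W : Rz n i0 i1 Φ,
    ∀ ψ ∈ W.D k, deriv (deriv fun ψ => W.Z k ψ (i1 k)) ψ = MvPolynomial.eval (W.Z k ψ) Q := by
  obtain ⟨Q, hQ⟩ := exists_dl (Φ k) (Φ k (i1 k))
  refine ⟨Q, fun W ψ hψ => ?_⟩
  have h1 : deriv (fun ψ => W.Z k ψ (i1 k)) =ᶠ[𝓝 ψ]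
      fun ψ => MvPolynomial.eval (W.Z k ψ) (Φ k (i1 k)) := by
    filter_upwards [(W.oD k hk).mem_nhds hψ] with s hs
    exact W.dH hk hs
  rw [h1.deriv_eq]
  exact (hQ _ _ _ _ _ (W.st k hk) ψ hψ).deriv

theorem isP_dH {k : ℕ} (hk : k < n) :
    IsP (fun (W : Rz n i0 i1 Φ) l => deriv (fun ψ => W.Z k ψ (i1 k)) (mid W.al k l)) :=
  (isP_st hk (Φ k (i1 k))).congr fun W l hl => W.dH hk (W.w.mem k hk l hl)

theorem isP_ddH {k : ℕ} (hk : k < n) :
    IsP (fun (W : Rz n i0 i1 Φ) l => deriv (deriv fun ψ => W.Z k ψ (i1 k)) (mid W.al k l)) := by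
  obtain ⟨Q, hQ⟩ := exists_ddH (i0 := i0) (i1 := i1) (Φ := Φ) k hk
  exact (isP_st hk Q).congr fun W l hl => hQ W _ (W.w.mem k hk l hl)

theorem Rz.anH (W : Rz n i0 i1 Φ) {k : ℕ} (hk : k < n) {ψ : ℂ} (hψ : ψ ∈ W.D k) :
    AnalyticAt ℂ (fun ψ => W.Z k ψ (i1 k)) ψ := by
  have hd : DifferentiableOn ℂ (fun ψ => W.Z k ψ (i1 k)) (W.D k) := fun s hs =>
    (hasDerivAt_pi.1 ((W.st k hk).der s hs) (i1 k)).differentiableAt.differentiableWithinAt
  exact hd.analyticAt ((W.oD k hk).mem_nhds hψ)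

theorem isD_line (e : ℂ × ℂ) : ∀ k ≤ n, IsD e (fun (W : Rz n i0 i1 Φ) l => W.al k l) ∧
    IsD e (fun (W : Rz n i0 i1 Φ) l => W.p k l) := by
  intro k
  induction k with
  | zero =>
    intro _
    have hal : ∀ (W : Rz n i0 i1 Φ), ∀ l ∈ W.V, HasFDerivAt (W.al 0)
        (ContinuousLinearMap.fst ℂ ℂ ℂ) l := fun W l hl =>
      hasFDerivAt_fst.congr_of_eventuallyEq (by
        filter_upwards [W.oV.mem_nhds hl] with u hu
        exact (W.b u hu).1)
    have hp : ∀ (W : Rz n i0 i1 Φ), ∀ l ∈ W.V, HasFDerivAt (W.p 0)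
        (ContinuousLinearMap.snd ℂ ℂ ℂ) l := fun W l hl =>
      hasFDerivAt_snd.congr_of_eventuallyEq (by
        filter_upwards [W.oV.mem_nhds hl] with u hu
        exact (W.b u hu).2)
    refine ⟨⟨fun W l hl => (hal W l hl).differentiableAt, ?_⟩,
      ⟨fun W l hl => (hp W l hl).differentiableAt, ?_⟩⟩
    · refine (IsP.const e.1).congr fun W l hl => ?_
      have := (hal W l hl).fderiv
      show fderiv ℂ (W.al 0) l e = e.1
      rw [this]; rfl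
    · refine (IsP.const e.2).congr fun W l hl => ?_
      have := (hp W l hl).fderiv
      show fderiv ℂ (W.p 0) l e = e.2
      rw [this]; rfl
  | succ k ih =>
    intro hk1
    have hk : k < n := by omega
    obtain ⟨ha, hp⟩ := ih (by omega)
    have key := fun (W : Rz n i0 i1 Φ) (l : ℂ × ℂ) (hl : l ∈ W.V) =>
      H650.letter_deriv (H := fun ψ => W.Z k ψ (i1 k)) (al := W.al k) (p := W.p k)
        (al' := W.al (k + 1)) (p' := W.p (k + 1)) (v := l)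
        (W.anH hk (W.w.mem k hk l hl)) (W.w.aA k (by omega) l hl).differentiableAt
        (W.w.aA (k + 1) hk1 l hl).differentiableAt
        (by filter_upwards [W.oV.mem_nhds hl] with u hu
            exact W.w.rf k hk u hu) e
    have hψ : IsP (fun (W : Rz n i0 i1 Φ) l => fderiv ℂ (mid W.al k) l e) := by
      refine ((isP_rs hk).mul ((((isP_H hk).mul (isP_sin hk)).add
        ((isP_dH hk).mul (isP_cos hk))).mul ha.2 |>.sub hp.2)).congr fun W l hl => ?_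
      have h1 := (key W l hl).2.2.1
      have h2 := W.w.nd k hk l hl
      rw [eq_inv_mul_iff_mul_eq₀ h2]
      exact h1
    have ha' : IsP (fun (W : Rz n i0 i1 Φ) l => fderiv ℂ (W.al (k + 1)) l e) := by
      refine (((IsP.const 2).mul hψ).sub ha.2).congr fun W l hl => ?_
      exact (key W l hl).2.2.2.1
    refine ⟨⟨fun W l hl => (W.w.aA (k + 1) hk1 l hl).differentiableAt, ha'⟩,
      ⟨fun W l hl => (W.w.pA (k + 1) hk1 l hl).differentiableAt, ?_⟩⟩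
    refine (((((isP_dH hk).mul (isP_cos hk)).add ((isP_ddH hk).mul (isP_sin hk))).mul hψ).add
      ((((isP_dH hk).mul (isP_cos hk)).sub ((isP_H hk).mul (isP_sin hk))).mul
        (hψ.sub ha.2))).congr fun W l hl => ?_
    exact (key W l hl).2.2.2.2

theorem isD_mid (e : ℂ × ℂ) {k : ℕ} (hk : k < n) :
    IsD e (fun (W : Rz n i0 i1 Φ) l => mid W.al k l) := by
  have h1 := (isD_line (i0 := i0) (i1 := i1) (Φ := Φ) e k hk.le).1
  have h2 := (isD_line (i0 := i0) (i1 := i1) (Φ := Φ) e (k + 1) hk).1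
  have hd : ∀ (W : Rz n i0 i1 Φ), ∀ l ∈ W.V, HasFDerivAt (mid W.al k)
      ((1 / 2 : ℂ) • (fderiv ℂ (W.al k) l + fderiv ℂ (W.al (k + 1)) l)) l := fun W l hl => by
    have h3 := (((h1.1 W l hl).hasFDerivAt.add (h2.1 W l hl).hasFDerivAt).const_mul (1 / 2 : ℂ))
    refine h3.congr_of_eventuallyEq (Eventually.of_forall fun u => ?_)
    simp only [mid, Pi.add_apply]; ring
  refine ⟨fun W l hl => (hd W l hl).differentiableAt, ?_⟩
  refine ((IsP.const (1 / 2)).mul (h1.2.add h2.2)).congr fun W l hl => ?_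
  have h4 := (hd W l hl).fderiv
  show fderiv ℂ (mid W.al k) l e = _
  rw [h4]; rfl

theorem isD_trn (e : ℂ × ℂ) {k : ℕ} (hk : k < n) :
    IsD e (fun (W : Rz n i0 i1 Φ) l => trn W.al k l) := by
  have h1 := (isD_line (i0 := i0) (i1 := i1) (Φ := Φ) e k hk.le).1
  have h2 := (isD_line (i0 := i0) (i1 := i1) (Φ := Φ) e (k + 1) hk).1
  have hd : ∀ (W : Rz n i0 i1 Φ), ∀ l ∈ W.V, HasFDerivAt (trn W.al k)
      ((1 / 2 : ℂ) • (fderiv ℂ (W.al (k + 1)) l - fderiv ℂ (W.al k) l)) l := fun W l hl => by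
    have h3 := (((h2.1 W l hl).hasFDerivAt.sub (h1.1 W l hl).hasFDerivAt).const_mul (1 / 2 : ℂ))
    refine h3.congr_of_eventuallyEq (Eventually.of_forall fun u => ?_)
    simp only [trn, Pi.sub_apply]; ring
  refine ⟨fun W l hl => (hd W l hl).differentiableAt, ?_⟩
  refine ((IsP.const (1 / 2)).mul (h2.2.sub h1.2)).congr fun W l hl => ?_
  have h4 := (hd W l hl).fderiv
  show fderiv ℂ (trn W.al k) l e = _
  rw [h4]; rfl

/-- Composition with a function of one variable. -/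
theorem IsD.comp {e : ℂ × ℂ} {g : Rz n i0 i1 Φ → ℂ × ℂ → ℂ} (hg : IsD e g)
    {f f' : Rz n i0 i1 Φ → ℂ → ℂ} (hf : ∀ W, ∀ l ∈ W.V, HasDerivAt (f W) (f' W (g W l)) (g W l))
    (hf' : IsP fun W l => f' W (g W l)) : IsD e (fun W l => f W (g W l)) := by
  have hd : ∀ (W : Rz n i0 i1 Φ), ∀ l ∈ W.V, HasFDerivAt (fun l => f W (g W l))
      (f' W (g W l) • fderiv ℂ (g W) l) l := fun W l hl =>
    (hf W l hl).comp_hasFDerivAt l (hg.1 W l hl).hasFDerivAt
  refine ⟨fun W l hl => (hd W l hl).differentiableAt, ?_⟩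
  refine (hf'.mul hg.2).congr fun W l hl => ?_
  show fderiv ℂ (fun l => f W (g W l)) l e = _
  rw [(hd W l hl).fderiv]; rfl

theorem IsD.mul {e : ℂ × ℂ} {f g : Rz n i0 i1 Φ → ℂ × ℂ → ℂ} (hf : IsD e f) (hg : IsD e g)
    (pf : IsP f) (pg : IsP g) : IsD e (fun W l => f W l * g W l) := by
  have hd : ∀ (W : Rz n i0 i1 Φ), ∀ l ∈ W.V, HasFDerivAt (fun l => f W l * g W l)
      (f W l • fderiv ℂ (g W) l + g W l • fderiv ℂ (f W) l) l := fun W l hl =>
    (hf.1 W l hl).hasFDerivAt.mul (hg.1 W l hl).hasFDerivAt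
  refine ⟨fun W l hl => (hd W l hl).differentiableAt, ?_⟩
  refine ((pf.mul hg.2).add (pg.mul hf.2)).congr fun W l hl => ?_
  show fderiv ℂ (fun l => f W l * g W l) l e = _
  rw [(hd W l hl).fderiv]; rfl

theorem isD_st (e : ℂ × ℂ) {k : ℕ} (hk : k < n) (Q : MvPolynomial τ ℂ) :
    IsD e (fun (W : Rz n i0 i1 Φ) l => MvPolynomial.eval (W.Z k (mid W.al k l)) Q) := by
  obtain ⟨Q', hQ'⟩ := exists_dl (Φ k) Q
  exact (isD_mid e hk).comp (f := fun W s => MvPolynomial.eval (W.Z k s) Q)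
    (f' := fun W s => MvPolynomial.eval (W.Z k s) Q')
    (fun W l hl => hQ' _ _ _ _ _ (W.st k hk) _ (W.w.mem k hk l hl)) (isP_st hk Q')

theorem isD_rs (e : ℂ × ℂ) {k : ℕ} (hk : k < n) :
    IsD e (fun (W : Rz n i0 i1 Φ) l => ((W.Z k (mid W.al k l) (i1 k)
      + deriv (deriv fun ψ => W.Z k ψ (i1 k)) (mid W.al k l)) * sin (trn W.al k l))⁻¹) := by
  obtain ⟨Q, hQ⟩ := exists_ddH (i0 := i0) (i1 := i1) (Φ := Φ) k hk
  have h1 : IsD e (fun (W : Rz n i0 i1 Φ) l =>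
      MvPolynomial.eval (W.Z k (mid W.al k l)) (MvPolynomial.X (i1 k) + Q)
        * sin (trn W.al k l)) :=
    (isD_st e hk _).mul ((isD_trn e hk).comp (f := fun _ s => sin s) (f' := fun _ s => cos s)
      (fun W l _ => Complex.hasDerivAt_sin _) (isP_cos hk)) (isP_st hk _) (isP_sin hk)
  have heq : ∀ (W : Rz n i0 i1 Φ), ∀ l ∈ W.V, (W.Z k (mid W.al k l) (i1 k)
      + deriv (deriv fun ψ => W.Z k ψ (i1 k)) (mid W.al k l)) * sin (trn W.al k l)
      = MvPolynomial.eval (W.Z k (mid W.al k l)) (MvPolynomial.X (i1 k) + Q)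
        * sin (trn W.al k l) := fun W l hl => by
    rw [hQ W _ (W.w.mem k hk l hl)]; simp
  have hd : ∀ (W : Rz n i0 i1 Φ), ∀ l ∈ W.V, HasFDerivAt (fun l => ((W.Z k (mid W.al k l) (i1 k)
      + deriv (deriv fun ψ => W.Z k ψ (i1 k)) (mid W.al k l)) * sin (trn W.al k l))⁻¹)
      ((-(((W.Z k (mid W.al k l) (i1 k)
      + deriv (deriv fun ψ => W.Z k ψ (i1 k)) (mid W.al k l)) * sin (trn W.al k l)) ^ 2)⁻¹) •
        fderiv ℂ (fun l => MvPolynomial.eval (W.Z k (mid W.al k l)) (MvPolynomial.X (i1 k) + Q)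
        * sin (trn W.al k l)) l) l := fun W l hl => by
    have h2 := (h1.1 W l hl).hasFDerivAt
    have h3 := (hasDerivAt_inv (by rw [← heq W l hl]; exact W.w.nd k hk l hl :
      MvPolynomial.eval (W.Z k (mid W.al k l)) (MvPolynomial.X (i1 k) + Q)
        * sin (trn W.al k l) ≠ 0)).comp_hasFDerivAt l h2
    rw [heq W l hl]
    refine h3.congr_of_eventuallyEq ?_
    filter_upwards [W.oV.mem_nhds hl] with u hu
    show _ = (MvPolynomial.eval (W.Z k (mid W.al k u)) (MvPolynomial.X (i1 k) + Q)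
        * sin (trn W.al k u))⁻¹
    rw [heq W u hu]
  refine ⟨fun W l hl => (hd W l hl).differentiableAt, ?_⟩
  refine ((((isP_rs hk).mul (isP_rs hk)).neg).mul h1.2).congr fun W l hl => ?_
  show fderiv ℂ _ l e = _
  rw [(hd W l hl).fderiv, _root_.smul_apply, smul_eq_mul, sq, mul_inv]

theorem isD_gen (e : ℂ × ℂ) (i : Gen n τ) : IsD e (fun (W : Rz n i0 i1 Φ) l => W.Y l i) := by
  rcases i with ⟨⟨k, hk⟩, i⟩ | ((⟨k, hk⟩ | ⟨k, hk⟩) | ⟨⟨k, hk⟩, i⟩)
  · have := isD_st (i0 := i0) (i1 := i1) (Φ := Φ) e hk (MvPolynomial.X i)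
    simp only [MvPolynomial.eval_X] at this
    exact this
  · have h1 : IsP (fun (W : Rz n i0 i1 Φ) l => -I * exp (-(I * mid W.al k l))) :=
      (IsP.const (-I)).mul (isP_expm hk)
    exact (isD_mid (i0 := i0) (i1 := i1) (Φ := Φ) e hk).comp (f := fun _ s => exp (-(I * s)))
      (f' := fun _ s => -I * exp (-(I * s))) (fun W l _ => by
        have h2 : HasDerivAt (fun s : ℂ => -(I * s)) (-(I * 1)) (mid W.al k l) :=
          ((hasDerivAt_id _).const_mul I).neg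
        refine h2.cexp.congr_deriv ?_
        ring) h1
  · exact isD_rs e hk
  · have hk' : k ≤ n := by omega
    have h0 := isD_line (i0 := i0) (i1 := i1) (Φ := Φ) e k hk'
    fin_cases i
    · exact h0.1.comp (f := fun _ s => exp (I * s)) (f' := fun _ s => I * exp (I * s))
        (fun W l _ => by
          have h2 : HasDerivAt (fun s : ℂ => I * s) (I * 1) (W.al k l) :=
            (hasDerivAt_id _).const_mul I
          refine h2.cexp.congr_deriv ?_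
          ring) ((IsP.const I).mul (isP_ea hk'))
    · exact h0.1.comp (f := fun _ s => exp (-(I * s))) (f' := fun _ s => -I * exp (-(I * s)))
        (fun W l _ => by
          have h2 : HasDerivAt (fun s : ℂ => -(I * s)) (-(I * 1)) (W.al k l) :=
            ((hasDerivAt_id _).const_mul I).neg
          refine h2.cexp.congr_deriv ?_
          ring) ((IsP.const (-I)).mul (isP_eb hk'))
    · exact h0.2

/-- **The state ring is closed under differentiation**: one polynomial system for all words with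
the same mirror equations. -/
theorem exists_system (n : ℕ) (i0 i1 : ℕ → τ) (Φ : ℕ → τ → MvPolynomial τ ℂ) :
    ∃ q : ℂ × ℂ → Gen n τ → MvPolynomial (Gen n τ) ℂ, ∀ W : Rz n i0 i1 Φ, ∀ l ∈ W.V, ∀ e,
      SolAt (evC (ℂ × ℂ)) q W.Y l e := by
  choose q hq using fun e i => (isD_gen (i0 := i0) (i1 := i1) (Φ := Φ) (n := n) e i).2
  refine ⟨q, fun W l hl e i => ⟨(isD_gen e i).1 W l hl, ?_⟩⟩
  rw [evM_evC]
  exact hq e i W l hl

end

end Vale.Agent.P097.H365.F5
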