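import Vale.Agent.P097.H365.F5.Pair
import Vale.Agent.P097.H839.Beta

/-!
# F5a: the core, in the coordinates of the first line
-/

namespace Vale.Agent.P097.H365.F5

open Complex Metric Set Filter Topology
open Vale.Agent.P097.H650 (Refl SolAt evC evM evM_evC Ind exists_generic)

set_option linter.unusedSectionVars false

theorem exists_bfam {τ : Type} [Fintype τ] {Φ : τ → MvPolynomial τ ℂ} {i0 i1 : τ} {c : ℂ} {R : ℝ}
    {V : Set ℂ} {H : ℂ → ℂ} {z : ℂ → τ → ℂ} (hR : 0 < R) (hV : IsOpen V)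
    (hcV : closedBall c R ⊆ V) (hP : PState Φ i0 i1 V H z) {ψ0 : ℂ} (hψ : ψ0 ∈ ball c R) :
    ∃ (δ : ℝ) (T : (τ → ℂ) → ℂ) (Z : ℂ × (τ → ℂ) → τ → ℂ),
      BFam Φ i0 i1 (ball c R) z ψ0 δ T Z := by
  obtain ⟨δ, hδ, T, Z, h1, h2, h3, h4, h5, h6, h7⟩ :=
    H839.beta Φ i0 i1 c R V H z hR hV hcV hP ψ0 hψ
  exact ⟨δ, T, Z, ⟨hδ, h1, h2, h3, h4, h5, h6, h7⟩⟩

section

variable {n : ℕ} {τ : Type} [Fintype τ]

/-- `prj k` as a linear map. -/
noncomputable def prjL (k : ℕ) : (Gen n τ → ℂ) →L[ℂ] (τ → ℂ) :=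
  ContinuousLinearMap.pi fun m =>
    if h : k < n then ContinuousLinearMap.proj (Sum.inl ((⟨k, h⟩ : Fin n), m)) else 0

theorem prjL_apply (k : ℕ) (y : Gen n τ → ℂ) : prjL k y = prj k y := by
  funext m
  unfold prjL prj
  by_cases h : k < n
  · simp [h]
  · simp [h]

variable {X : Type} [NormedAddCommGroup X] [NormedSpace ℂ X]

theorem hasFDerivAt_mir {φ : X → Gen n τ → ℂ} {x0 : X} (hφ : AnalyticAt ℂ φ x0)
    {Z : ℕ → ℂ × (τ → ℂ) → τ → ℂ} {k : ℕ} {ψ : ℂ} (hZ : AnalyticAt ℂ (Z k) (ψ, prj k (φ x0)))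
    (i1 : ℕ → τ) : DifferentiableAt ℂ (fun x => mir i1 Z φ k (ψ, x)) x0 ∧
    ∀ ξ, fderiv ℂ (fun x => mir i1 Z φ k (ψ, x)) x0 ξ
      = fderiv ℂ (fun y => Z k (ψ, y) (i1 k)) (prj k (φ x0)) (prj k (fderiv ℂ φ x0 ξ)) := by
  have h1 : AnalyticAt ℂ (fun y => Z k (ψ, y) (i1 k)) (prj k (φ x0)) := by
    have h2 : AnalyticAt ℂ (fun y => Z k (ψ, y)) (prj k (φ x0)) :=
      AnalyticAt.fun_comp (g := Z k) (f := fun y : τ → ℂ => (ψ, y)) hZ
        (analyticAt_const.prod analyticAt_id)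
    exact ((ContinuousLinearMap.proj (R := ℂ) (φ := fun _ : τ => ℂ) (i1 k)).analyticAt
      _).fun_comp h2
  have h2 : HasFDerivAt (fun x => prj k (φ x)) ((prjL k).comp (fderiv ℂ φ x0)) x0 := by
    have h3 := (prjL (n := n) (τ := τ) k).hasFDerivAt.comp x0 hφ.differentiableAt.hasFDerivAt
    refine h3.congr_of_eventuallyEq (Eventually.of_forall fun x => ?_)
    exact (prjL_apply k (φ x)).symm
  have h3 : HasFDerivAt (fun x => mir i1 Z φ k (ψ, x))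
      ((fderiv ℂ (fun y => Z k (ψ, y) (i1 k)) (prj k (φ x0))).comp
        ((prjL k).comp (fderiv ℂ φ x0))) x0 :=
    HasFDerivAt.comp x0 (g := fun y => Z k (ψ, y) (i1 k)) (f := fun x => prj k (φ x))
      h1.differentiableAt.hasFDerivAt h2
  refine ⟨h3.differentiableAt, fun ξ => ?_⟩
  rw [h3.fderiv]
  show fderiv ℂ (fun y => Z k (ψ, y) (i1 k)) (prj k (φ x0)) (prjL k (fderiv ℂ φ x0 ξ)) = _
  rw [prjL_apply]

end

/-- Output of F5a in the coordinates of the first line. -/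
def Out {n n' : ℕ} (V : Set (ℂ × ℂ)) (c : ℂ) (R : ℝ) (h : ℂ → ℂ) (al p : ℕ → ℂ × ℂ → ℂ)
    (c' : ℕ → ℂ) (R' : ℕ → ℝ) (h' : ℕ → ℂ → ℂ) (al' p' : ℕ → ℂ × ℂ → ℂ) : Prop :=
  ∃ l1 ∈ V, ∃ e0 > 0, ∃ (HN HS : ℕ → ℂ × ℂ → ℂ),
    (∀ k < n, AnalyticOnNhd ℂ (HN k) (ball c R ×ˢ ball 0 e0)) ∧
    (∀ k < n, ∀ ψ ∈ ball c R, HN k (ψ, 0) = h ψ) ∧
    (∀ k < n', AnalyticOnNhd ℂ (HS k) (ball (c' k) (R' k) ×ˢ ball 0 e0)) ∧
    (∀ k < n', ∀ ψ ∈ ball (c' k) (R' k), HS k (ψ, 0) = h' k ψ) ∧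
    (∀ i < n, ∀ j < n, i ≠ j → ∃ ψ ∈ ball c R,
      deriv (fun e => HN i (ψ, e)) 0 ≠ deriv (fun e => HN j (ψ, e)) 0) ∧
    ∃ (AL P AL' P' : ℕ → (ℂ × ℂ) × ℂ → ℂ) (m0 : ℂ),
      (∀ k ≤ n, AnalyticAt ℂ (AL k) (l1, 0) ∧ AnalyticAt ℂ (P k) (l1, 0) ∧
        AL k (l1, 0) = al k l1 ∧ P k (l1, 0) = p k l1) ∧
      (∀ q, AL 0 q = q.1.1 ∧ P 0 q = q.1.2) ∧
      (∀ k < n, ∀ᶠ q in 𝓝 (l1, (0 : ℂ)), Refl (fun ψ => HN k (ψ, q.2)) (AL k q) (P k q)
        (AL (k + 1) q) (P (k + 1) q)) ∧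
      (∀ k ≤ n', AnalyticAt ℂ (AL' k) (l1, 0) ∧ AnalyticAt ℂ (P' k) (l1, 0) ∧
        AL' k (l1, 0) = al' k l1 ∧ P' k (l1, 0) = p' k l1) ∧
      (∀ q, AL' 0 q = q.1.1 ∧ P' 0 q = q.1.2) ∧
      (∀ k < n', ∀ᶠ q in 𝓝 (l1, (0 : ℂ)), Refl (fun ψ => HS k (ψ, q.2)) (AL' k q) (P' k q)
        (AL' (k + 1) q) (P' (k + 1) q)) ∧
      exp (I * m0) = 1 ∧
      ∀ᶠ q in 𝓝 (l1, (0 : ℂ)), AL' n' q = AL n q + m0 ∧ P' n' q = P n q

section

variable {n n' : ℕ} {τ τ' : Type} [Fintype τ] [Fintype τ']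

/-- Curve through the patch: analytic mirrors on a fixed disc. -/
theorem exists_e0 {X : Type} [NormedAddCommGroup X] [NormedSpace ℂ X]
    {i0 i1 : ℕ → τ} {Φ : ℕ → τ → MvPolynomial τ ℂ}
    {D : ℕ → Set ℂ} {z : ℕ → ℂ → τ → ℂ} {ψ0 : ℕ → ℂ} {δ : ℕ → ℝ} {T : ℕ → (τ → ℂ) → ℂ}
    {Z : ℕ → ℂ × (τ → ℂ) → τ → ℂ}
    (hB : ∀ k < n, BFam (Φ k) (i0 k) (i1 k) (D k) (z k) (ψ0 k) (δ k) (T k) (Z k))
    {x0 : X} {φ : X → Gen n τ → ℂ} (hφ : AnalyticAt ℂ φ x0)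
    (hφ0 : ∀ k < n, prj k (φ x0) = z k (ψ0 k)) (ξ : X) :
    ∃ e0 > 0, ∀ k < n, AnalyticOnNhd ℂ (fun v : ℂ × ℂ => mir i1 Z φ k (v.1, x0 + v.2 • ξ))
      (D k ×ˢ ball 0 e0) := by
  have hc : Continuous fun e : ℂ => x0 + e • ξ :=
    continuous_const.add (continuous_id.smul continuous_const)
  have h00 : x0 + (0 : ℂ) • ξ = x0 := by rw [zero_smul, add_zero]
  have h1 : ∀ᶠ e in 𝓝 (0 : ℂ), AnalyticAt ℂ φ (x0 + e • ξ) := by
    have h2 : ∀ᶠ x in 𝓝 (x0 + (0 : ℂ) • ξ), AnalyticAt ℂ φ x := by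
      rw [h00]; exact hφ.eventually_analyticAt
    exact hc.continuousAt.eventually h2
  have h3 : ∀ᶠ e in 𝓝 (0 : ℂ), ∀ k < n, prj k (φ (x0 + e • ξ)) ∈ ball (z k (ψ0 k)) (δ k) := by
    refine (Set.finite_lt_nat n).eventually_all.2 fun k hk => ?_
    have h4 : ContinuousAt (fun x => prj k (φ x)) (x0 + (0 : ℂ) • ξ) := by
      rw [h00]
      exact ContinuousAt.comp (g := prj k) (continuous_prj k).continuousAt hφ.continuousAt
    have h5 : ContinuousAt (fun e : ℂ => prj k (φ (x0 + e • ξ))) 0 :=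
      ContinuousAt.comp (g := fun x => prj k (φ x)) (f := fun e : ℂ => x0 + e • ξ) h4
        hc.continuousAt
    refine h5.preimage_mem_nhds ?_
    rw [h00, hφ0 k hk]
    exact ball_mem_nhds _ (hB k hk).pos
  obtain ⟨e0, he0, hball⟩ := Metric.eventually_nhds_iff_ball.1 (h1.and h3)
  refine ⟨e0, he0, fun k hk v hv => ?_⟩
  have h6 := hball v.2 hv.2
  have h7 : AnalyticAt ℂ (mir i1 Z φ k) (v.1, x0 + v.2 • ξ) :=
    analyticAt_mir (v := (v.1, x0 + v.2 • ξ)) h6.1 ((hB k hk).aZ _ ⟨hv.1, h6.2 k hk⟩)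
  refine AnalyticAt.fun_comp (g := mir i1 Z φ k) (f := fun v : ℂ × ℂ => (v.1, x0 + v.2 • ξ)) h7 ?_
  refine analyticAt_fst.prod ?_
  exact analyticAt_const.add (((ContinuousLinearMap.id ℂ ℂ).smulRight ξ).analyticAt _ |>.fun_comp
    analyticAt_snd)

theorem core {i0 i1 : τ} {c : ℂ} {R : ℝ} {V : Set ℂ} {h : ℂ → ℂ} {Φ : τ → MvPolynomial τ ℂ}
    {z : ℂ → τ → ℂ} (hR : 0 < R) (hVo : IsOpen V) (hcV : closedBall c R ⊆ V)
    (hP : PState Φ i0 i1 V h z) (hne : i0 ≠ i1) {J : Set τ} (hJ0 : i0 ∈ J) (hJ1 : i1 ∈ J)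
    (hJP : ∀ m ∉ J, ∃ P : Polynomial (MvPolynomial J ℂ),
        (∀ u ∈ ball c R, P.eval₂ (evM (evC ℂ) u (fun i : J => z u i)) (z u m) = 0) ∧
        ∃ u ∈ ball c R, (Polynomial.derivative P).eval₂ (evM (evC ℂ) u (fun i : J => z u i))
          (z u m) ≠ 0)
    (W : Rz n (fun _ => i0) (fun _ => i1) (fun _ => Φ)) (hWD : ∀ k, W.D k = ball c R)
    (hWZ : ∀ k, W.Z k = z)
    (hpair : ∀ i < n, ∀ j < n, i ≠ j → Ind (evC (ℂ × ℂ)) W.V (fun l =>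
      Sum.elim (fun m : J => z (mid W.al i l) m) (fun m : J => z (mid W.al j l) m)))
    {i0' i1' : ℕ → τ'} {c' : ℕ → ℂ} {R' : ℕ → ℝ} {V' : ℕ → Set ℂ}
    {h' : ℕ → ℂ → ℂ} {Φ' : ℕ → τ' → MvPolynomial τ' ℂ} {z' : ℕ → ℂ → τ' → ℂ}
    (hR' : ∀ k < n', 0 < R' k) (hVo' : ∀ k < n', IsOpen (V' k))
    (hcV' : ∀ k < n', closedBall (c' k) (R' k) ⊆ V' k)
    (hP' : ∀ k < n', PState (Φ' k) (i0' k) (i1' k) (V' k) (h' k) (z' k))
    (W' : Rz n' i0' i1' Φ') (hWD' : ∀ k, W'.D k = ball (c' k) (R' k)) (hWZ' : ∀ k, W'.Z k = z' k)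
    (hV : W'.V = W.V) (hVp : IsPreconnected W.V) (hVn : W.V.Nonempty)
    (hout : ∀ l ∈ W.V, exp (I * W'.al n' l) = exp (I * W.al n l) ∧ W'.p n' l = W.p n l) :
    Out (n := n) (n' := n') W.V c R h W.al W.p c' R' h' W'.al W'.p := by
  classical
  obtain ⟨q, hq⟩ := exists_system n (fun _ => i0) (fun _ => i1) (fun _ => Φ)
  obtain ⟨q', hq'⟩ := exists_system n' i0' i1' Φ'
  have hFa : AnalyticOnNhd ℂ (both W W') W.V := analyticOnNhd_of_solAt W.oV fun l hl e =>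
    solAt_sum (hq W l hl e) (hq' W' l (by rw [hV]; exact hl) e)
  -- pairs of letters
  let κ : Type := {q : Fin n × Fin n // q.1 ≠ q.2}
  let ρ : κ → (J ⊕ J) → Gen n τ ⊕ Gen n' τ' := fun q => Sum.elim
    (fun m => Sum.inl (Sum.inl (q.1.1, (m : τ)))) (fun m => Sum.inl (Sum.inl (q.1.2, (m : τ))))
  have hρ : ∀ q, Function.Injective (ρ q) := by
    intro q x y hxy
    rcases x with x | x <;> rcases y with y | y
    · have h1 := Sum.inl_injective (Sum.inl_injective hxy)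
      rw [Subtype.ext (congrArg Prod.snd h1)]
    · have h1 := Sum.inl_injective (Sum.inl_injective hxy)
      exact absurd (congrArg Prod.fst h1) q.2
    · have h1 := Sum.inl_injective (Sum.inl_injective hxy)
      exact absurd (congrArg Prod.fst h1).symm q.2
    · have h1 := Sum.inl_injective (Sum.inl_injective hxy)
      rw [Subtype.ext (congrArg Prod.snd h1)]
  obtain ⟨l1, hl1, S, iS, φ, r, hr, hφa, hφ0, hφQ, hξ⟩ := alpha (κ := κ) W.oV hVp hVn hFa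
    (fun q => range (ρ q)) (fun q => by
      apply ind_range (hρ q)
      have h1 := hpair q.1.1 q.1.1.2 q.1.2 q.1.2.2 (fun h => q.2 (Fin.ext h))
      have h2 : (fun (u : ℂ × ℂ) (x : J ⊕ J) => both W W' u (ρ q x)) = fun l =>
          Sum.elim (fun m : J => z (mid W.al q.1.1 l) m)
            (fun m : J => z (mid W.al q.1.2 l) m) := by
        funext l x
        rcases x with x | x
        · show W.Z q.1.1 (mid W.al q.1.1 l) x = _
          rw [hWZ]; rfl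
        · show W.Z q.1.2 (mid W.al q.1.2 l) x = _
          rw [hWZ]; rfl
      rw [h2]
      exact h1) (fun q => Sum.inl (Sum.inl (q.1.2, i1))) (fun q => ⟨Sum.inr ⟨i1, hJ1⟩, rfl⟩)
  set x0 : S → ℂ := fun i : S => both W W' l1 i with hx0
  have hl1' : l1 ∈ W'.V := by rw [hV]; exact hl1
  -- mirror families
  have hψ : ∀ k < n, mid W.al k l1 ∈ ball c R := fun k hk => by
    rw [← hWD k]; exact W.w.mem k hk l1 hl1
  have hψ' : ∀ k < n', mid W'.al k l1 ∈ ball (c' k) (R' k) := fun k hk => by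
    rw [← hWD' k]; exact W'.w.mem k hk l1 hl1'
  have hb : ∀ k, ∃ (δ : ℝ) (T : (τ → ℂ) → ℂ) (Z : ℂ × (τ → ℂ) → τ → ℂ), k < n →
      BFam Φ i0 i1 (ball c R) z (mid W.al k l1) δ T Z := fun k => by
    by_cases hk : k < n
    · obtain ⟨δ, T, Z, h⟩ := exists_bfam hR hVo hcV hP (hψ k hk)
      exact ⟨δ, T, Z, fun _ => h⟩
    · exact ⟨0, fun _ => 0, fun _ _ => 0, fun h => absurd h hk⟩
  choose δ T Z hB0 using hb
  have hb' : ∀ k, ∃ (δ : ℝ) (T : (τ' → ℂ) → ℂ) (Z : ℂ × (τ' → ℂ) → τ' → ℂ), k < n' →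
      BFam (Φ' k) (i0' k) (i1' k) (ball (c' k) (R' k)) (z' k) (mid W'.al k l1) δ T Z :=
    fun k => by
    by_cases hk : k < n'
    · obtain ⟨δ, T, Z, h⟩ := exists_bfam (hR' k hk) (hVo' k hk) (hcV' k hk) (hP' k hk) (hψ' k hk)
      exact ⟨δ, T, Z, fun _ => h⟩
    · exact ⟨0, fun _ => 0, fun _ _ => 0, fun h => absurd h hk⟩
  choose δ' T' Z' hB0' using hb'
  have hB : ∀ k < n, BFam Φ i0 i1 (W.D k) (W.Z k) (mid W.al k l1) (δ k) (T k) (Z k) :=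
    fun k hk => by rw [hWD, hWZ]; exact hB0 k hk
  have hB' : ∀ k < n', BFam (Φ' k) (i0' k) (i1' k) (W'.D k) (W'.Z k) (mid W'.al k l1) (δ' k)
      (T' k) (Z' k) := fun k hk => by rw [hWD', hWZ']; exact hB0' k hk
  have hφa0 : AnalyticAt ℂ φ x0 := hφa _ (mem_ball_self hr)
  obtain ⟨AL, P, AL', P', m0, c1, c2, c3, c4, c5, c6, c7, c8⟩ := closed_family W W' hV hl1 hout
    hB hB' (x0 := x0) (φ := φ) hφa0 hφ0 (by
      filter_upwards [ball_mem_nhds x0 hr] with x hx Q hQ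
      exact hφQ Q hQ x hx)
  set φN : (S → ℂ) → Gen n τ → ℂ := fun x i => φ x (Sum.inl i) with hφN
  set φS : (S → ℂ) → Gen n' τ' → ℂ := fun x i => φ x (Sum.inr i) with hφS
  have hφi : ∀ i, AnalyticAt ℂ (fun x => φ x i) x0 := fun i =>
    ((ContinuousLinearMap.proj (R := ℂ) (φ := fun _ : Gen n τ ⊕ Gen n' τ' => ℂ) i).analyticAt
      _).fun_comp hφa0
  have hφNa : AnalyticAt ℂ φN x0 := AnalyticAt.pi fun i => hφi _
  have hφSa : AnalyticAt ℂ φS x0 := AnalyticAt.pi fun i => hφi _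
  have hprN : ∀ k < n, prj k (φN x0) = z (mid W.al k l1) := fun k hk => by
    have h1 : φN x0 = W.Y l1 := by funext i; simp only [hφN, hφ0]; rfl
    rw [h1, W.prj_Y hk, hWZ]
  have hprS : ∀ k < n', prj k (φS x0) = z' k (mid W'.al k l1) := fun k hk => by
    have h1 : φS x0 = W'.Y l1 := by funext i; simp only [hφS, hφ0]; rfl
    rw [h1, W'.prj_Y hk, hWZ']
  have hZa : ∀ k < n, ∀ ψ ∈ ball c R, AnalyticAt ℂ (Z k) (ψ, prj k (φN x0)) :=
    fun k hk ψ hψ => by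
      rw [hprN k hk]
      exact (hB0 k hk).aZ _ ⟨hψ, mem_ball_self (hB0 k hk).pos⟩
  -- derivative of the states along the patch
  have hprd : ∀ (k : ℕ) (hk : k < n) (ξ : S → ℂ) (m : τ),
      prj k (fderiv ℂ φN x0 ξ) m = fderiv ℂ φ x0 ξ (Sum.inl (Sum.inl (⟨k, hk⟩, m))) := by
    intro k hk ξ m
    have h1 : HasFDerivAt φN (ContinuousLinearMap.pi fun i =>
        (ContinuousLinearMap.proj (R := ℂ) (φ := fun _ : Gen n τ ⊕ Gen n' τ' => ℂ)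
          (Sum.inl i)).comp (fderiv ℂ φ x0)) x0 := by
      rw [hasFDerivAt_pi']
      intro i
      exact (ContinuousLinearMap.proj (R := ℂ) (φ := fun _ : Gen n τ ⊕ Gen n' τ' => ℂ)
        (Sum.inl i)).hasFDerivAt.comp x0 hφa0.differentiableAt.hasFDerivAt
    rw [h1.fderiv]
    simp only [prj, hk, dif_pos]
    rfl
  -- the displacement functionals
  set G : ℕ → ℂ → ((S → ℂ) →L[ℂ] ℂ) := fun k ψ =>
    fderiv ℂ (fun x => mir (fun _ => i1) Z φN k (ψ, x)) x0 with hG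
  have hpairG : ∀ q : κ, ∃ ξ, (G q.1.2 (mid W.al q.1.2 l1) - G q.1.1 (mid W.al q.1.2 l1)) ξ
      ≠ 0 := by
    intro q
    obtain ⟨ξ, x1, x2, x3⟩ := hξ q
    have hqi : (q.1.1 : ℕ) < n := q.1.1.2
    have hqj : (q.1.2 : ℕ) < n := q.1.2.2
    have hi : prj q.1.1 (fderiv ℂ φN x0 ξ) = 0 := by
      funext m
      rw [hprd q.1.1 hqi ξ m]
      show fderiv ℂ φ x0 ξ (Sum.inl (Sum.inl (q.1.1, m))) = 0
      by_cases hm : m ∈ J
      · exact x2 _ ⟨Sum.inl ⟨m, hm⟩, rfl⟩ (fun heq => by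
          have h1 := Sum.inl_injective (Sum.inl_injective heq)
          exact q.2 (congrArg Prod.fst h1))
      · obtain ⟨Pm, hPm, u, hu, hPu⟩ := hJP m hm
        have hPm0 : Pm ≠ 0 := by
          rintro rfl
          simp at hPu
        refine x3 (range fun x : J => ρ q (Sum.inl x)) ?_ _
          (not_ind (E := ℂ × ℂ) (F := both W W') (ρ := fun x : J => ρ q (Sum.inl x))
            (fun a b hab => Sum.inl_injective (hρ q hab)) (m := Sum.inl (Sum.inl (q.1.1, m)))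
            hPm0 ?_)
        · rintro _ ⟨x, rfl⟩
          refine ⟨⟨Sum.inl x, rfl⟩, fun heq => ?_⟩
          have h1 := Sum.inl_injective (Sum.inl_injective heq)
          exact q.2 (congrArg Prod.fst h1)
        · intro l hl
          have h1 := hPm (mid W.al q.1.1 l) (by
            rw [← hWD q.1.1]; exact W.w.mem q.1.1 hqi l hl)
          have h2 : ∀ x : J → ℂ, evM (evC (ℂ × ℂ)) l x
              = evM (evC ℂ) (mid W.al q.1.1 l) x := fun x =>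
            RingHom.ext fun Q => by rw [evM_evC, evM_evC]
          have h3 : ∀ m', both W W' l (Sum.inl (Sum.inl (q.1.1, m')))
              = z (mid W.al q.1.1 l) m' := fun m' => by
            show W.Z q.1.1 (mid W.al q.1.1 l) m' = _
            rw [hWZ]
          rw [h2, h3 m]
          have h4 : (fun x : J => both W W' l (ρ q (Sum.inl x)))
              = fun x : J => z (mid W.al q.1.1 l) x := funext fun x => h3 x
          rw [h4]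
          exact h1
    have hj0 : prj q.1.2 (fderiv ℂ φN x0 ξ) i0 = 0 := by
      rw [hprd q.1.2 hqj ξ i0]
      exact x2 _ ⟨Sum.inr ⟨i0, hJ0⟩, rfl⟩ (fun heq => by
        have h1 := Sum.inl_injective (Sum.inl_injective heq)
        exact hne (congrArg Prod.snd h1))
    have hj1 : prj q.1.2 (fderiv ℂ φN x0 ξ) i1 = 1 := by
      rw [hprd q.1.2 hqj ξ i1]
      exact x1
    have e1 : G q.1.1 (mid W.al q.1.2 l1) ξ = 0 := by
      rw [hG]
      show fderiv ℂ (fun x => mir (fun _ => i1) Z φN q.1.1 (mid W.al q.1.2 l1, x)) x0 ξ = 0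
      rw [(hasFDerivAt_mir hφNa (hZa _ hqi _ (hψ _ hqj)) (fun _ => i1)).2 ξ, hi, map_zero]
    have e2 : G q.1.2 (mid W.al q.1.2 l1) ξ = 1 := by
      rw [hG]
      show fderiv ℂ (fun x => mir (fun _ => i1) Z φN q.1.2 (mid W.al q.1.2 l1, x)) x0 ξ = 1
      rw [(hasFDerivAt_mir hφNa (hZa _ hqj _ (hψ _ hqj)) (fun _ => i1)).2 ξ, hprN _ hqj,
        (hB0 _ hqj).disp (hψ _ hqj) hj0, hj1]
    refine ⟨ξ, ?_⟩
    rw [_root_.sub_apply, e1, e2, sub_zero]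
    exact one_ne_zero
  obtain ⟨ξ, -, hξ0⟩ := exists_generic (κ := κ) (U := (univ : Set (S → ℂ))) isOpen_univ
    isPreconnected_univ
    (D := fun q x => (G q.1.2 (mid W.al q.1.2 l1) - G q.1.1 (mid W.al q.1.2 l1)) x)
    (fun q x _ => (G q.1.2 (mid W.al q.1.2 l1) - G q.1.1 (mid W.al q.1.2 l1)).analyticAt x)
    (fun q => by obtain ⟨ξ, h⟩ := hpairG q; exact ⟨ξ, mem_univ _, h⟩)
    isOpen_univ ⟨0, mem_univ _, mem_univ _⟩
  obtain ⟨e1, he1, hN⟩ := exists_e0 (i0 := fun _ => i0) (i1 := fun _ => i1) (Φ := fun _ => Φ)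
    (D := fun _ => ball c R) (z := fun _ => z) (ψ0 := fun k => mid W.al k l1) hB0 hφNa hprN ξ
  obtain ⟨e2, he2, hS⟩ := exists_e0 (i0 := i0') (i1 := i1') (Φ := Φ')
    (D := fun k => ball (c' k) (R' k)) (z := z') (ψ0 := fun k => mid W'.al k l1) hB0' hφSa hprS ξ
  have h00 : x0 + (0 : ℂ) • ξ = x0 := by rw [zero_smul, add_zero]
  set crv : (ℂ × ℂ) × ℂ → (ℂ × ℂ) × (S → ℂ) := fun q => (q.1, x0 + q.2 • ξ) with hcrv
  have hcrvA : AnalyticAt ℂ crv (l1, 0) := by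
    refine analyticAt_fst.prod ?_
    exact analyticAt_const.add (((ContinuousLinearMap.id ℂ ℂ).smulRight ξ).analyticAt _
      |>.fun_comp analyticAt_snd)
  have hcrv0 : crv (l1, 0) = (l1, x0) := by
    show (l1, x0 + (0 : ℂ) • ξ) = _
    rw [h00]
  have hpull : ∀ {p : (ℂ × ℂ) × (S → ℂ) → Prop}, (∀ᶠ q in 𝓝 (l1, x0), p q) →
      ∀ᶠ q in 𝓝 (l1, (0 : ℂ)), p (crv q) := fun {p} hp =>
    hcrvA.continuousAt.eventually (by rw [hcrv0]; exact hp)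
  have hcomp : ∀ {f : (ℂ × ℂ) × (S → ℂ) → ℂ}, AnalyticAt ℂ f (l1, x0) →
      AnalyticAt ℂ (fun q => f (crv q)) (l1, 0) := fun {f} hf =>
    AnalyticAt.fun_comp (g := f) (f := crv) (by rw [hcrv0]; exact hf) hcrvA
  have hder : ∀ k < n, ∀ ψ ∈ ball c R,
      deriv (fun e : ℂ => mir (fun _ => i1) Z φN k (ψ, x0 + e • ξ)) 0 = G k ψ ξ := by
    intro k hk ψ hψk
    have h1 : HasDerivAt (fun e : ℂ => x0 + e • ξ) ξ 0 := by
      have h2 : HasDerivAt (fun e : ℂ => e • ξ) ((1 : ℂ) • ξ) 0 :=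
        (hasDerivAt_id (0 : ℂ)).smul_const ξ
      rw [one_smul] at h2
      exact h2.const_add x0
    have h3 : HasFDerivAt (fun x => mir (fun _ => i1) Z φN k (ψ, x)) (G k ψ)
        (x0 + (0 : ℂ) • ξ) := by
      rw [h00]
      exact (hasFDerivAt_mir hφNa (hZa k hk ψ hψk) (fun _ => i1)).1.hasFDerivAt
    exact (h3.comp_hasDerivAt (0 : ℂ) h1).deriv
  refine ⟨l1, hl1, min e1 e2, lt_min he1 he2,
    fun k v => mir (fun _ => i1) Z φN k (v.1, x0 + v.2 • ξ),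
    fun k v => mir i1' Z' φS k (v.1, x0 + v.2 • ξ), ?_, ?_, ?_, ?_, ?_,
    fun k q => AL k (crv q), fun k q => P k (crv q), fun k q => AL' k (crv q),
    fun k q => P' k (crv q), m0, ?_, fun q => c2 _, ?_, ?_, fun q => c5 _, ?_, c7, hpull c8⟩
  · exact fun k hk => (hN k hk).mono (prod_mono subset_rfl (ball_subset_ball (min_le_left _ _)))
  · intro k hk ψ hψk
    show Z k (ψ, prj k (φN (x0 + (0 : ℂ) • ξ))) i1 = h ψ
    rw [h00, hprN k hk, (hB0 k hk).Z0 ψ hψk]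
    exact hP.hH ψ (hcV (ball_subset_closedBall hψk))
  · exact fun k hk => (hS k hk).mono (prod_mono subset_rfl (ball_subset_ball (min_le_right _ _)))
  · intro k hk ψ hψk
    show Z' k (ψ, prj k (φS (x0 + (0 : ℂ) • ξ))) (i1' k) = h' k ψ
    rw [h00, hprS k hk, (hB0' k hk).Z0 ψ hψk]
    exact (hP' k hk).hH ψ (hcV' k hk (ball_subset_closedBall hψk))
  · intro i hi j hj hij
    refine ⟨mid W.al j l1, hψ j hj, ?_⟩
    have h1 := hξ0 ⟨(⟨i, hi⟩, ⟨j, hj⟩), fun h => hij (congrArg Fin.val h)⟩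
    intro heq
    apply h1
    show G j (mid W.al j l1) ξ - G i (mid W.al j l1) ξ = 0
    rw [← hder j hj _ (hψ j hj), ← hder i hi _ (hψ j hj)]
    exact sub_eq_zero.2 heq.symm
  · intro k hk
    obtain ⟨y1, y2, y3, y4⟩ := c1 k hk
    refine ⟨hcomp y1, hcomp y2, ?_, ?_⟩
    · show AL k (crv (l1, 0)) = _
      rw [hcrv0, y3]
    · show P k (crv (l1, 0)) = _
      rw [hcrv0, y4]
  · exact fun k hk => hpull (c3 k hk)
  · intro k hk
    obtain ⟨y1, y2, y3, y4⟩ := c4 k hk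
    refine ⟨hcomp y1, hcomp y2, ?_, ?_⟩
    · show AL' k (crv (l1, 0)) = _
      rw [hcrv0, y3]
    · show P' k (crv (l1, 0)) = _
      rw [hcrv0, y4]
  · exact fun k hk => hpull (c6 k hk)

end

end Vale.Agent.P097.H365.F5
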