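import Vale.Agent.P097.H365.F5.Closure

/-!
# F5a: families of words
-/

namespace Vale.Agent.P097.H365.F5

open Complex Metric Set Filter Topology
open Vale.Agent.P097.H650 (Refl SolAt evC evM evM_evC D1)

set_option linter.unusedSectionVars false

/-- The reflection law depends only on the germ of the mirror. -/
theorem refl_congr {H H' : ℂ → ℂ} {al p al' p' : ℂ} (h : H =ᶠ[𝓝 ((al + al') / 2)] H')
    (hr : Refl H al p al' p') : Refl H' al p al' p' := by
  unfold Refl at hr ⊢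
  rw [← h.deriv_eq, ← h.self_of_nhds]
  exact hr

theorem WordOn.congr {n : ℕ} {U : Set (ℂ × ℂ)} {H H' : ℕ → ℂ → ℂ} {D : ℕ → Set ℂ}
    {al p : ℕ → ℂ × ℂ → ℂ} (w : WordOn n U H D al p) (hD : ∀ k < n, IsOpen (D k))
    (h : ∀ k < n, ∀ ψ ∈ D k, H k ψ = H' k ψ) : WordOn n U H' D al p := by
  have hev : ∀ k < n, ∀ ψ ∈ D k, H k =ᶠ[𝓝 ψ] H' k := fun k hk ψ hψ => by
    filter_upwards [(hD k hk).mem_nhds hψ] with s hs
    exact h k hk s hs
  refine ⟨w.aA, w.pA, fun k hk u hu => refl_congr ?_ (w.rf k hk u hu), fun k hk u hu => ?_, w.mem⟩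
  · exact hev k hk _ (w.mem k hk u hu)
  · have h1 := hev k hk _ (w.mem k hk u hu)
    rw [← h1.deriv.deriv_eq, ← h1.self_of_nhds]
    exact w.nd k hk u hu

theorem WordOn.comp {n : ℕ} {U B : Set (ℂ × ℂ)} {H : ℕ → ℂ → ℂ} {D : ℕ → Set ℂ}
    {al p : ℕ → ℂ × ℂ → ℂ} (w : WordOn n U H D al p) {g : ℂ × ℂ → ℂ × ℂ}
    (hg : AnalyticOnNhd ℂ g B) (hgU : ∀ l ∈ B, g l ∈ U) :
    WordOn n B H D (fun k l => al k (g l)) (fun k l => p k (g l)) where
  aA k hk l hl := (w.aA k hk _ (hgU l hl)).fun_comp (hg l hl)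
  pA k hk l hl := (w.pA k hk _ (hgU l hl)).fun_comp (hg l hl)
  rf k hk l hl := w.rf k hk _ (hgU l hl)
  nd k hk l hl := w.nd k hk _ (hgU l hl)
  mem k hk l hl := w.mem k hk _ (hgU l hl)

/-- A function with small values whose exponential is one vanishes. -/
theorem eventually_zero_of_exp {X : Type*} [TopologicalSpace X] {f : X → ℂ} {x0 : X}
    (hf : ContinuousAt f x0) (h0 : f x0 = 0) :
    ∀ᶠ x in 𝓝 x0, exp (I * f x) = 1 → f x = 0 := by
  have h1 : ∀ᶠ x in 𝓝 x0, ‖f x‖ < 2 * Real.pi := by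
    have h2 : ContinuousAt (fun x => ‖f x‖) x0 := hf.norm
    exact h2.eventually_lt continuousAt_const (by simp [h0, Real.pi_pos])
  filter_upwards [h1] with x h3 h2
  obtain ⟨n, hn⟩ := Complex.exp_eq_one_iff.1 h2
  have h4 : f x = n * (2 * Real.pi) := by
    have h5 : I * f x = I * (n * (2 * Real.pi)) := by rw [hn]; ring
    exact mul_left_cancel₀ Complex.I_ne_zero h5
  have h6 : ‖f x‖ = |(n : ℝ)| * (2 * Real.pi) := by
    rw [h4, norm_mul, norm_mul, Complex.norm_intCast, Complex.norm_real, Complex.norm_ofNat,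
      Real.norm_of_nonneg Real.pi_pos.le]
  rw [h6] at h3
  have h7 : |(n : ℝ)| < 1 := by
    have := Real.pi_pos
    by_contra hcon
    push Not at hcon
    nlinarith
  have h8 : n = 0 := by
    have h9 : |n| < 1 := by exact_mod_cast h7
    exact Int.abs_lt_one_iff.1 h9
  rw [h4, h8]; simp

/-- Family of mirrors near a given one (output of (β)). -/
structure BFam {τ : Type} [Fintype τ] (Φ : τ → MvPolynomial τ ℂ) (i0 i1 : τ) (D : Set ℂ)
    (z : ℂ → τ → ℂ) (ψ0 : ℂ) (δ : ℝ) (T : (τ → ℂ) → ℂ) (Z : ℂ × (τ → ℂ) → τ → ℂ) : Prop where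
  pos : 0 < δ
  aT : AnalyticOnNhd ℂ T (ball (z ψ0) δ)
  T0 : T (z ψ0) = ψ0
  TD : ∀ y ∈ ball (z ψ0) δ, T y ∈ D ∧ exp (I * T y) = y i0
  aZ : AnalyticOnNhd ℂ Z (D ×ˢ ball (z ψ0) δ)
  ZT : ∀ y ∈ ball (z ψ0) δ, Z (T y, y) = y
  st : ∀ y ∈ ball (z ψ0) δ, PState Φ i0 i1 D (fun ψ => Z (ψ, y) i1) (fun ψ => Z (ψ, y))
  Z0 : ∀ ψ ∈ D, Z (ψ, z ψ0) = z ψ

section

variable {n : ℕ} {τ : Type} [Fintype τ] {i0 i1 : ℕ → τ} {Φ : ℕ → τ → MvPolynomial τ ℂ}

/-- State of the `k`-th letter. -/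
def prj (k : ℕ) (y : Gen n τ → ℂ) : τ → ℂ := fun m =>
  if h : k < n then y (Sum.inl (⟨k, h⟩, m)) else 0

/-- The value of `e^{-iψ_k}`. -/
def yr (k : ℕ) (y : Gen n τ → ℂ) : ℂ :=
  if h : k < n then y (Sum.inr (Sum.inl (Sum.inl ⟨k, h⟩))) else 0

/-- The value of `1/(rho sin d)`. -/
def ys (k : ℕ) (y : Gen n τ → ℂ) : ℂ :=
  if h : k < n then y (Sum.inr (Sum.inl (Sum.inr ⟨k, h⟩))) else 0

/-- The value of `e^{i al}`, `e^{-i al}`, `p`. -/
def yl (i : Fin 3) (k : ℕ) (y : Gen n τ → ℂ) : ℂ :=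
  if h : k ≤ n then y (Sum.inr (Sum.inr (⟨k, Nat.lt_succ_of_le h⟩, i))) else 0

theorem continuous_prj (k : ℕ) : Continuous (prj k : (Gen n τ → ℂ) → τ → ℂ) := by
  refine continuous_pi fun m => ?_
  unfold prj
  by_cases h : k < n
  · simp only [h, dif_pos]; exact continuous_apply _
  · simp only [h, dif_neg, not_false_eq_true]; exact continuous_const

theorem continuous_yl (i : Fin 3) (k : ℕ) : Continuous (yl i k : (Gen n τ → ℂ) → ℂ) := by
  unfold yl
  by_cases h : k ≤ n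
  · simp only [h, dif_pos]; exact continuous_apply _
  · simp only [h, dif_neg, not_false_eq_true]; exact continuous_const

theorem Rz.prj_Y (W : Rz n i0 i1 Φ) {k : ℕ} (hk : k < n) (l : ℂ × ℂ) :
    prj k (W.Y l) = W.Z k (mid W.al k l) := by
  funext m; simp only [prj, hk, dif_pos]; rfl

theorem Rz.yl0 (W : Rz n i0 i1 Φ) {k : ℕ} (hk : k ≤ n) (l : ℂ × ℂ) :
    yl 0 k (W.Y l) = exp (I * W.al k l) := by simp only [yl, hk, dif_pos]; rfl

theorem Rz.yl1 (W : Rz n i0 i1 Φ) {k : ℕ} (hk : k ≤ n) (l : ℂ × ℂ) :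
    yl 1 k (W.Y l) = exp (-(I * W.al k l)) := by simp only [yl, hk, dif_pos]; rfl

theorem Rz.yl2 (W : Rz n i0 i1 Φ) {k : ℕ} (hk : k ≤ n) (l : ℂ × ℂ) :
    yl 2 k (W.Y l) = W.p k l := by simp only [yl, hk, dif_pos]; rfl

/-- All polynomial relations of the word. -/
def RelY (W : Rz n i0 i1 Φ) (y : Gen n τ → ℂ) : Prop :=
  ∀ Q : MvPolynomial (Gen n τ) ℂ, (∀ l ∈ W.V, MvPolynomial.eval (W.Y l) Q = 0) →
    MvPolynomial.eval y Q = 0

theorem RelY.r1 {W : Rz n i0 i1 Φ} {y : Gen n τ → ℂ} (hy : RelY W y) {k : ℕ} (hk : k < n) :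
    prj k y (i0 k) * yr k y = 1 := by
  have h := hy (MvPolynomial.X (Sum.inl (⟨k, hk⟩, i0 k))
    * MvPolynomial.X (Sum.inr (Sum.inl (Sum.inl ⟨k, hk⟩))) - 1) (fun l hl => by
      simp only [map_sub, map_mul, MvPolynomial.eval_X, map_one]
      show W.Z k (mid W.al k l) (i0 k) * exp (-(I * mid W.al k l)) - 1 = 0
      rw [(W.st k hk).hE _ (W.w.mem k hk l hl), ← Complex.exp_add, add_neg_cancel,
        Complex.exp_zero, sub_self])
  simp only [map_sub, map_mul, MvPolynomial.eval_X, map_one] at h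
  simp only [prj, yr, hk, dif_pos]
  exact sub_eq_zero.1 h

theorem RelY.r2 {W : Rz n i0 i1 Φ} {y : Gen n τ → ℂ} (hy : RelY W y) {k : ℕ} (hk : k ≤ n) :
    yl 0 k y * yl 1 k y = 1 := by
  have h := hy (MvPolynomial.X (Sum.inr (Sum.inr (⟨k, Nat.lt_succ_of_le hk⟩, 0)))
    * MvPolynomial.X (Sum.inr (Sum.inr (⟨k, Nat.lt_succ_of_le hk⟩, 1))) - 1) (fun l hl => by
      simp only [map_sub, map_mul, MvPolynomial.eval_X, map_one]
      show exp (I * W.al k l) * exp (-(I * W.al k l)) - 1 = 0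
      rw [← Complex.exp_add, add_neg_cancel, Complex.exp_zero, sub_self])
  simp only [map_sub, map_mul, MvPolynomial.eval_X, map_one] at h
  simp only [yl, hk, dif_pos]
  exact sub_eq_zero.1 h

theorem RelY.r3 {W : Rz n i0 i1 Φ} {y : Gen n τ → ℂ} (hy : RelY W y) {k : ℕ} (hk : k < n) :
    prj k y (i0 k) * prj k y (i0 k) = yl 0 k y * yl 0 (k + 1) y := by
  have h := hy (MvPolynomial.X (Sum.inl (⟨k, hk⟩, i0 k)) * MvPolynomial.X (Sum.inl (⟨k, hk⟩, i0 k))
    - MvPolynomial.X (Sum.inr (Sum.inr (⟨k, by omega⟩, 0)))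
      * MvPolynomial.X (Sum.inr (Sum.inr (⟨k + 1, by omega⟩, 0)))) (fun l hl => by
      simp only [map_sub, map_mul, MvPolynomial.eval_X]
      show W.Z k (mid W.al k l) (i0 k) * W.Z k (mid W.al k l) (i0 k)
        - exp (I * W.al k l) * exp (I * W.al (k + 1) l) = 0
      rw [(W.st k hk).hE _ (W.w.mem k hk l hl), ← Complex.exp_add, ← Complex.exp_add, sub_eq_zero]
      congr 1
      simp only [mid]; ring)
  simp only [map_sub, map_mul, MvPolynomial.eval_X] at h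
  have h1 : k ≤ n := hk.le
  have h2 : k + 1 ≤ n := hk
  simp only [prj, yl, hk, h1, h2, dif_pos]
  exact sub_eq_zero.1 h

/-- `cos d_k` and `sin d_k` read off the generators. -/
noncomputable def yc (i0 : ℕ → τ) (k : ℕ) (y : Gen n τ → ℂ) : ℂ :=
  (yl 0 (k + 1) y * yr k y + yl 1 (k + 1) y * prj k y (i0 k)) / 2

noncomputable def ysn (i0 : ℕ → τ) (k : ℕ) (y : Gen n τ → ℂ) : ℂ :=
  (yl 1 (k + 1) y * prj k y (i0 k) - yl 0 (k + 1) y * yr k y) * (I / 2)

/-- The polynomials of `cos d_k`, `sin d_k`. -/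
noncomputable def pc (i0 : ℕ → τ) (k : ℕ) (hk : k < n) : MvPolynomial (Gen n τ) ℂ :=
  (MvPolynomial.X (Sum.inr (Sum.inr (⟨k + 1, Nat.succ_lt_succ hk⟩, 0)))
    * MvPolynomial.X (Sum.inr (Sum.inl (Sum.inl ⟨k, hk⟩)))
    + MvPolynomial.X (Sum.inr (Sum.inr (⟨k + 1, Nat.succ_lt_succ hk⟩, 1)))
    * MvPolynomial.X (Sum.inl (⟨k, hk⟩, i0 k))) * MvPolynomial.C (1 / 2)

noncomputable def ps (i0 : ℕ → τ) (k : ℕ) (hk : k < n) : MvPolynomial (Gen n τ) ℂ :=
  (MvPolynomial.X (Sum.inr (Sum.inr (⟨k + 1, Nat.succ_lt_succ hk⟩, 1)))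
    * MvPolynomial.X (Sum.inl (⟨k, hk⟩, i0 k))
    - MvPolynomial.X (Sum.inr (Sum.inr (⟨k + 1, Nat.succ_lt_succ hk⟩, 0)))
    * MvPolynomial.X (Sum.inr (Sum.inl (Sum.inl ⟨k, hk⟩)))) * MvPolynomial.C (I / 2)

theorem eval_pc {k : ℕ} (hk : k < n) (y : Gen n τ → ℂ) :
    MvPolynomial.eval y (pc i0 k hk) = yc i0 k y := by
  have h2 : k + 1 ≤ n := hk
  simp only [pc, yc, map_add, map_mul, MvPolynomial.eval_X, MvPolynomial.eval_C, prj, yl, yr, hk,
    h2, dif_pos]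
  ring

theorem eval_ps {k : ℕ} (hk : k < n) (y : Gen n τ → ℂ) :
    MvPolynomial.eval y (ps i0 k hk) = ysn i0 k y := by
  have h2 : k + 1 ≤ n := hk
  simp only [ps, ysn, map_sub, map_mul, MvPolynomial.eval_X, MvPolynomial.eval_C, prj, yl, yr, hk,
    h2, dif_pos]

theorem cos_eq (x : ℂ) : cos x = (exp (x * I) + exp (-(x * I))) / 2 := by
  rw [Complex.cos, neg_mul]

theorem sin_eq (x : ℂ) : sin x = (exp (-(x * I)) - exp (x * I)) * (I / 2) := by
  rw [Complex.sin, neg_mul]; ring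

theorem Rz.yc_Y (W : Rz n i0 i1 Φ) {k : ℕ} (hk : k < n) {l : ℂ × ℂ} (hl : l ∈ W.V) :
    yc i0 k (W.Y l) = cos (trn W.al k l) ∧ ysn i0 k (W.Y l) = sin (trn W.al k l) := by
  have h1 : yr k (W.Y l) = exp (-(I * mid W.al k l)) := by simp only [yr, hk, dif_pos]; rfl
  have h2 : yl 0 (k + 1) (W.Y l) * yr k (W.Y l) = exp (trn W.al k l * I) := by
    rw [h1, W.yl0 hk, ← Complex.exp_add]
    congr 1
    simp only [mid, trn]; ring
  have h3 : yl 1 (k + 1) (W.Y l) * prj k (W.Y l) (i0 k) = exp (-(trn W.al k l * I)) := by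
    rw [W.prj_Y hk, W.yl1 hk, (W.st k hk).hE _ (W.w.mem k hk l hl), ← Complex.exp_add]
    congr 1
    simp only [mid, trn]; ring
  refine ⟨?_, ?_⟩
  · rw [yc, h2, h3, cos_eq]
  · rw [ysn, h2, h3, sin_eq]

/-- The polynomial `Q` of the state of the letter `k`. -/
noncomputable def pz (k : ℕ) (hk : k < n) (Q : MvPolynomial τ ℂ) : MvPolynomial (Gen n τ) ℂ :=
  MvPolynomial.rename (fun i => Sum.inl ((⟨k, hk⟩ : Fin n), i)) Q

theorem eval_pz {k : ℕ} (hk : k < n) (Q : MvPolynomial τ ℂ) (y : Gen n τ → ℂ) :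
    MvPolynomial.eval y (pz k hk Q) = MvPolynomial.eval (prj k y) Q := by
  rw [pz, MvPolynomial.eval_rename]
  congr 2
  funext m
  simp only [prj, hk, dif_pos, Function.comp]

theorem RelY.r4 {W : Rz n i0 i1 Φ} {y : Gen n τ → ℂ} (hy : RelY W y) {k : ℕ} (hk : k < n) :
    yl 2 k y = prj k y (i1 k) * yc i0 k y
      - MvPolynomial.eval (prj k y) (Φ k (i1 k)) * ysn i0 k y ∧
    yl 2 (k + 1) y = prj k y (i1 k) * yc i0 k y
      + MvPolynomial.eval (prj k y) (Φ k (i1 k)) * ysn i0 k y := by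
  have h1 : k ≤ n := hk.le
  have h2 : k + 1 ≤ n := hk
  constructor
  · have h := hy (MvPolynomial.X (Sum.inr (Sum.inr (⟨k, by omega⟩, 2)))
      - (pz k hk (MvPolynomial.X (i1 k)) * pc i0 k hk - pz k hk (Φ k (i1 k)) * ps i0 k hk))
      (fun l hl => by
        simp only [map_sub, map_mul, eval_pc, eval_ps, eval_pz, MvPolynomial.eval_X, W.prj_Y hk]
        rw [(W.yc_Y hk hl).1, (W.yc_Y hk hl).2, ← W.dH hk (W.w.mem k hk l hl)]
        exact sub_eq_zero.2 (W.w.rf k hk l hl).1)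
    simp only [map_sub, map_mul, eval_pc, eval_ps, eval_pz, MvPolynomial.eval_X] at h
    rw [← sub_eq_zero.1 h]
    simp only [yl, h1, dif_pos]
  · have h := hy (MvPolynomial.X (Sum.inr (Sum.inr (⟨k + 1, by omega⟩, 2)))
      - (pz k hk (MvPolynomial.X (i1 k)) * pc i0 k hk + pz k hk (Φ k (i1 k)) * ps i0 k hk))
      (fun l hl => by
        simp only [map_sub, map_add, map_mul, eval_pc, eval_ps, eval_pz, MvPolynomial.eval_X,
          W.prj_Y hk]
        rw [(W.yc_Y hk hl).1, (W.yc_Y hk hl).2, ← W.dH hk (W.w.mem k hk l hl)]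
        exact sub_eq_zero.2 (W.w.rf k hk l hl).2)
    simp only [map_sub, map_add, map_mul, eval_pc, eval_ps, eval_pz, MvPolynomial.eval_X] at h
    rw [← sub_eq_zero.1 h]
    simp only [yl, h2, dif_pos]

/-- The second derivative of the support function as a polynomial of the state. -/
noncomputable def ddp (Φ : ℕ → τ → MvPolynomial τ ℂ) (i1 : ℕ → τ) (k : ℕ) : MvPolynomial τ ℂ :=
  (exists_dl (Φ k) (Φ k (i1 k))).choose

theorem ddp_spec {k : ℕ} {j0 j1 : τ} {D : Set ℂ} (hD : IsOpen D) {z : ℂ → τ → ℂ} {H : ℂ → ℂ}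
    (hz : PState (Φ k) j0 j1 D H z) {ψ : ℂ} (hψ : ψ ∈ D) :
    deriv (fun s => z s (i1 k)) ψ = MvPolynomial.eval (z ψ) (Φ k (i1 k)) ∧
    deriv (deriv fun s => z s (i1 k)) ψ = MvPolynomial.eval (z ψ) (ddp Φ i1 k) := by
  have h0 : ∀ s ∈ D, deriv (fun s => z s (i1 k)) s = MvPolynomial.eval (z s) (Φ k (i1 k)) :=
    fun s hs => (hasDerivAt_pi.1 (hz.der s hs) (i1 k)).deriv
  refine ⟨h0 ψ hψ, ?_⟩
  have h1 : deriv (fun s => z s (i1 k)) =ᶠ[𝓝 ψ] fun s => MvPolynomial.eval (z s) (Φ k (i1 k)) := by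
    filter_upwards [hD.mem_nhds hψ] with s hs
    exact h0 s hs
  rw [h1.deriv_eq]
  exact ((exists_dl (Φ k) (Φ k (i1 k))).choose_spec _ _ _ _ _ hz ψ hψ).deriv

theorem RelY.r5 {W : Rz n i0 i1 Φ} {y : Gen n τ → ℂ} (hy : RelY W y) {k : ℕ} (hk : k < n) :
    ((prj k y (i1 k) + MvPolynomial.eval (prj k y) (ddp Φ i1 k)) * ysn i0 k y) * ys k y = 1 := by
  have h := hy ((pz k hk (MvPolynomial.X (i1 k) + ddp Φ i1 k) * ps i0 k hk)
      * MvPolynomial.X (Sum.inr (Sum.inl (Sum.inr ⟨k, hk⟩))) - 1) (fun l hl => by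
      simp only [map_sub, map_add, map_mul, eval_ps, eval_pz, MvPolynomial.eval_X, W.prj_Y hk,
        map_one]
      rw [(W.yc_Y hk hl).2, ← (ddp_spec (W.oD k hk) (W.st k hk) (W.w.mem k hk l hl)).2]
      exact sub_eq_zero.2 (mul_inv_cancel₀ (W.w.nd k hk l hl)))
  simp only [map_sub, map_add, map_mul, eval_ps, eval_pz, MvPolynomial.eval_X, map_one] at h
  simp only [ys, hk, dif_pos]
  exact sub_eq_zero.1 h

/-- The angle of the `k`-th line read off the generators. -/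
noncomputable def la (W : Rz n i0 i1 Φ) (l1 : ℂ × ℂ) (k : ℕ) (y : Gen n τ → ℂ) : ℂ :=
  W.al k l1 - I * log (yl 0 k y * exp (-(I * W.al k l1)))

theorem la_cont (W : Rz n i0 i1 Φ) (l1 : ℂ × ℂ) {k : ℕ} (hk : k ≤ n) :
    ContinuousAt (la W l1 k) (W.Y l1) ∧ la W l1 k (W.Y l1) = W.al k l1 := by
  have h1 : yl 0 k (W.Y l1) * exp (-(I * W.al k l1)) = 1 := by
    rw [W.yl0 hk, ← Complex.exp_add, add_neg_cancel, Complex.exp_zero]
  refine ⟨?_, ?_⟩
  · refine continuousAt_const.sub (continuousAt_const.mul (ContinuousAt.clog ?_ ?_))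
    · exact ((continuous_yl 0 k).continuousAt).mul continuousAt_const
    · rw [h1]; exact Complex.one_mem_slitPlane
  · unfold la
    rw [h1, Complex.log_one, mul_zero, sub_zero]

theorem exp_la (W : Rz n i0 i1 Φ) (l1 : ℂ × ℂ) {k : ℕ} {y : Gen n τ → ℂ} (hy : yl 0 k y ≠ 0) :
    exp (I * la W l1 k y) = yl 0 k y := by
  have h1 : I * la W l1 k y = I * W.al k l1 + log (yl 0 k y * exp (-(I * W.al k l1))) := by
    unfold la
    linear_combination (-log (yl 0 k y * exp (-(I * W.al k l1)))) * Complex.I_sq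
  rw [h1, Complex.exp_add, Complex.exp_log (mul_ne_zero hy (Complex.exp_ne_zero _)), mul_comm,
    mul_assoc, ← Complex.exp_add, neg_add_cancel, Complex.exp_zero, mul_one]

/-- **Decoding**: a point near the base point satisfying all relations is the vector of generators
of a chain of lines for the nearby mirrors. -/
theorem decode (W : Rz n i0 i1 Φ) {l1 : ℂ × ℂ} {δ : ℕ → ℝ} {T : ℕ → (τ → ℂ) → ℂ}
    {Z : ℕ → ℂ × (τ → ℂ) → τ → ℂ} (hB : ∀ k < n, BFam (Φ k) (i0 k) (i1 k) (W.D k) (W.Z k)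
      (mid W.al k l1) (δ k) (T k) (Z k)) :
    ∀ᶠ y in 𝓝 (W.Y l1), RelY W y →
      (∀ k < n, Refl (fun ψ => Z k (ψ, prj k y) (i1 k)) (la W l1 k y) (yl 2 k y)
        (la W l1 (k + 1) y) (yl 2 (k + 1) y)) ∧
      gv n i1 (fun k ψ => Z k (ψ, prj k y)) (fun k _ => la W l1 k y) (fun k _ => yl 2 k y) l1
        = y := by
  -- the states stay in the balls
  have e1 : ∀ᶠ y in 𝓝 (W.Y l1), ∀ k < n,
      prj k y ∈ ball (W.Z k (mid W.al k l1)) (δ k) := by
    refine (Set.finite_lt_nat n).eventually_all.2 fun k hk => ?_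
    have h1 : ContinuousAt (prj k : (Gen n τ → ℂ) → τ → ℂ) (W.Y l1) :=
      (continuous_prj k).continuousAt
    exact h1.preimage_mem_nhds (by rw [W.prj_Y hk]; exact ball_mem_nhds _ (hB k hk).pos)
  -- the time function gives the angle
  have e2 : ∀ᶠ y in 𝓝 (W.Y l1), ∀ k < n,
      exp (I * (2 * T k (prj k y) - la W l1 k y - la W l1 (k + 1) y)) = 1 →
        2 * T k (prj k y) - la W l1 k y - la W l1 (k + 1) y = 0 := by
    refine (Set.finite_lt_nat n).eventually_all.2 fun k hk => ?_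
    have hk' : k < n := hk
    have h1 := la_cont W l1 hk'.le
    have h2 := la_cont W l1 (k := k + 1) hk
    have h3 : ContinuousAt (fun y : Gen n τ → ℂ => T k (prj k y)) (W.Y l1) := by
      have h4 : ContinuousAt (T k) (prj k (W.Y l1)) := by
        rw [W.prj_Y hk]
        exact ((hB k hk).aT _ (mem_ball_self (hB k hk).pos)).continuousAt
      exact ContinuousAt.comp (g := T k) h4 (continuous_prj k).continuousAt
    refine eventually_zero_of_exp (f := fun y => 2 * T k (prj k y) - la W l1 k y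
      - la W l1 (k + 1) y) (((continuousAt_const.mul h3).sub h1.1).sub h2.1) ?_
    show 2 * T k (prj k (W.Y l1)) - la W l1 k (W.Y l1) - la W l1 (k + 1) (W.Y l1) = 0
    rw [W.prj_Y hk, (hB k hk).T0, h1.2, h2.2]
    simp only [mid]; ring
  filter_upwards [e1, e2] with y h1 h2 hy
  have hl0 : ∀ k ≤ n, yl 0 k y ≠ 0 := fun k hk h => by
    have := hy.r2 hk
    rw [h, zero_mul] at this
    exact zero_ne_one this
  have hla : ∀ k ≤ n, exp (I * la W l1 k y) = yl 0 k y := fun k hk => exp_la W l1 (hl0 k hk)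
  have hlb : ∀ k ≤ n, exp (-(I * la W l1 k y)) = yl 1 k y := fun k hk => by
    rw [Complex.exp_neg, hla k hk]
    exact (eq_inv_of_mul_eq_one_right (hy.r2 hk)).symm
  have hT : ∀ k < n, T k (prj k y) = (la W l1 k y + la W l1 (k + 1) y) / 2 := by
    intro k hk
    have h3 : exp (I * (2 * T k (prj k y) - la W l1 k y - la W l1 (k + 1) y)) = 1 := by
      have h4 : exp (I * T k (prj k y)) = prj k y (i0 k) := ((hB k hk).TD _ (h1 k hk)).2
      have h5 : exp (I * (2 * T k (prj k y) - la W l1 k y - la W l1 (k + 1) y))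
          * (exp (I * la W l1 k y) * exp (I * la W l1 (k + 1) y))
          = exp (I * T k (prj k y)) * exp (I * T k (prj k y)) := by
        rw [← Complex.exp_add, ← Complex.exp_add, ← Complex.exp_add]
        congr 1; ring
      rw [h4, hla k hk.le, hla (k + 1) hk, hy.r3 hk] at h5
      have h6 : yl 0 k y * yl 0 (k + 1) y ≠ 0 := mul_ne_zero (hl0 k hk.le) (hl0 (k + 1) hk)
      exact mul_right_cancel₀ h6 (by rw [h5, one_mul])
    have h4 := h2 k hk h3
    linear_combination (1 / 2 : ℂ) * h4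
  have hZ : ∀ k < n, Z k ((la W l1 k y + la W l1 (k + 1) y) / 2, prj k y) = prj k y := by
    intro k hk
    rw [← hT k hk]
    exact (hB k hk).ZT _ (h1 k hk)
  have hTm : ∀ k < n, (la W l1 k y + la W l1 (k + 1) y) / 2 ∈ W.D k := by
    intro k hk
    rw [← hT k hk]
    exact ((hB k hk).TD _ (h1 k hk)).1
  have hr : ∀ k < n, exp (-(I * ((la W l1 k y + la W l1 (k + 1) y) / 2))) = yr k y := by
    intro k hk
    rw [← hT k hk, Complex.exp_neg, ((hB k hk).TD _ (h1 k hk)).2]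
    exact (eq_inv_of_mul_eq_one_right (hy.r1 hk)).symm
  have he : ∀ k < n, exp (I * ((la W l1 k y + la W l1 (k + 1) y) / 2)) = prj k y (i0 k) := by
    intro k hk
    rw [← hT k hk, ((hB k hk).TD _ (h1 k hk)).2]
  have hd1 : ∀ k < n, exp ((la W l1 (k + 1) y - la W l1 k y) / 2 * I)
      = yl 0 (k + 1) y * yr k y := by
    intro k hk
    rw [← hla (k + 1) hk, ← hr k hk, ← Complex.exp_add]
    congr 1; ring
  have hd2 : ∀ k < n, exp (-((la W l1 (k + 1) y - la W l1 k y) / 2 * I))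
      = yl 1 (k + 1) y * prj k y (i0 k) := by
    intro k hk
    rw [← hlb (k + 1) hk, ← he k hk, ← Complex.exp_add]
    congr 1; ring
  have hcos : ∀ k < n, cos ((la W l1 (k + 1) y - la W l1 k y) / 2) = yc i0 k y := by
    intro k hk
    rw [cos_eq, hd1 k hk, hd2 k hk, yc]
  have hsin : ∀ k < n, sin ((la W l1 (k + 1) y - la W l1 k y) / 2) = ysn i0 k y := by
    intro k hk
    rw [sin_eq, hd1 k hk, hd2 k hk, ysn]
  have hdd := fun k (hk : k < n) => ddp_spec (Φ := Φ) (i1 := i1) (k := k) (W.oD k hk)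
    ((hB k hk).st _ (h1 k hk)) (hTm k hk)
  refine ⟨fun k hk => ?_, ?_⟩
  · have h4 := hy.r4 hk
    have h5 := (hdd k hk).1
    unfold Refl
    rw [hcos k hk, hsin k hk, h5]
    simp only [hZ k hk]
    exact h4
  · funext i
    rcases i with ⟨⟨k, hk⟩, m⟩ | ((⟨k, hk⟩ | ⟨k, hk⟩) | ⟨⟨k, hk⟩, i⟩)
    · show Z k ((la W l1 k y + la W l1 (k + 1) y) / 2, prj k y) m = _
      rw [hZ k hk]
      simp only [prj, hk, dif_pos]
    · show exp (-(I * ((la W l1 k y + la W l1 (k + 1) y) / 2))) = _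
      rw [hr k hk]
      simp only [yr, hk, dif_pos]
    · show ((Z k ((la W l1 k y + la W l1 (k + 1) y) / 2, prj k y) (i1 k)
        + deriv (deriv fun ψ => Z k (ψ, prj k y) (i1 k)) ((la W l1 k y + la W l1 (k + 1) y) / 2))
        * sin ((la W l1 (k + 1) y - la W l1 k y) / 2))⁻¹ = _
      rw [hsin k hk, (hdd k hk).2, hZ k hk]
      have h6 := hy.r5 hk
      have h7 : ys k y = y (Sum.inr (Sum.inl (Sum.inr ⟨k, hk⟩))) := by
        simp only [ys, hk, dif_pos]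
      rw [← h7]
      exact (eq_inv_of_mul_eq_one_right h6).symm
    · have hk' : k ≤ n := by omega
      fin_cases i
      · show exp (I * la W l1 k y) = _
        rw [hla k hk']
        simp only [yl, hk', dif_pos]; rfl
      · show exp (-(I * la W l1 k y)) = _
        rw [hlb k hk']
        simp only [yl, hk', dif_pos]; rfl
      · show yl 2 k y = _
        simp only [yl, hk', dif_pos]; rfl

end

end Vale.Agent.P097.H365.F5
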