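import Vale.Agent.P097.H365.F5.Fam

/-!
# F5a: the family of words over the patch
-/

namespace Vale.Agent.P097.H365.F5

open Complex Metric Set Filter Topology
open Vale.Agent.P097.H650 (Refl SolAt evC evM evM_evC D1)

set_option linter.unusedSectionVars false

section

variable {n : ℕ} {τ : Type} [Fintype τ] {i0 i1 : ℕ → τ} {Φ : ℕ → τ → MvPolynomial τ ℂ}

theorem gv_congr {Z : ℕ → ℂ → τ → ℂ} {al p al' p' : ℕ → ℂ × ℂ → ℂ} {l l' : ℂ × ℂ}
    (ha : ∀ k ≤ n, al k l = al' k l') (hp : ∀ k ≤ n, p k l = p' k l') :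
    gv n i1 Z al p l = gv n i1 Z al' p' l' := by
  have hm : ∀ k < n, mid al k l = mid al' k l' := fun k hk => by
    unfold mid
    rw [ha k hk.le, ha (k + 1) hk]
  have ht : ∀ k < n, trn al k l = trn al' k l' := fun k hk => by
    unfold trn
    rw [ha k hk.le, ha (k + 1) hk]
  funext i
  rcases i with ⟨⟨k, hk⟩, m⟩ | ((⟨k, hk⟩ | ⟨k, hk⟩) | ⟨⟨k, hk⟩, i⟩)
  · show Z k (mid al k l) m = Z k (mid al' k l') m
    rw [hm k hk]
  · show exp (-(I * mid al k l)) = exp (-(I * mid al' k l'))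
    rw [hm k hk]
  · show ((Z k (mid al k l) (i1 k) + deriv (deriv fun ψ => Z k ψ (i1 k)) (mid al k l))
        * sin (trn al k l))⁻¹
      = ((Z k (mid al' k l') (i1 k) + deriv (deriv fun ψ => Z k ψ (i1 k)) (mid al' k l'))
        * sin (trn al' k l'))⁻¹
    rw [hm k hk, ht k hk]
  · have hk' : k ≤ n := by omega
    show ![exp (I * al k l), exp (-(I * al k l)), p k l] i
      = ![exp (I * al' k l'), exp (-(I * al' k l')), p' k l'] i
    rw [ha k hk', hp k hk']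

theorem analyticAt_prj (k : ℕ) (y : Gen n τ → ℂ) :
    AnalyticAt ℂ (prj k : (Gen n τ → ℂ) → τ → ℂ) y := by
  refine AnalyticAt.pi fun m => ?_
  unfold prj
  by_cases h : k < n
  · simp only [h, dif_pos]
    exact (ContinuousLinearMap.proj (R := ℂ) (φ := fun _ : Gen n τ => ℂ) _).analyticAt _
  · simp only [h, dif_neg, not_false_eq_true]
    exact analyticAt_const

variable {X : Type} [NormedAddCommGroup X] [NormedSpace ℂ X]

/-- The mirror of the letter `k` over the patch. -/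
def mir (i1 : ℕ → τ) (Z : ℕ → ℂ × (τ → ℂ) → τ → ℂ) (φ : X → Gen n τ → ℂ) (k : ℕ) (v : ℂ × X) : ℂ :=
  Z k (v.1, prj k (φ v.2)) (i1 k)

theorem analyticAt_mir {φ : X → Gen n τ → ℂ} {Z : ℕ → ℂ × (τ → ℂ) → τ → ℂ} {k : ℕ} {v : ℂ × X}
    (hφ : AnalyticAt ℂ φ v.2) (hZ : AnalyticAt ℂ (Z k) (v.1, prj k (φ v.2))) :
    AnalyticAt ℂ (mir i1 Z φ k) v := by
  have h1 : AnalyticAt ℂ (fun v : ℂ × X => (v.1, prj k (φ v.2))) v := by
    refine analyticAt_fst.prod ?_
    exact (analyticAt_prj k _).fun_comp (hφ.fun_comp analyticAt_snd)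
  have h2 : AnalyticAt ℂ (fun v : ℂ × X => Z k (v.1, prj k (φ v.2))) v :=
    AnalyticAt.fun_comp (g := Z k) (f := fun v : ℂ × X => (v.1, prj k (φ v.2))) hZ h1
  exact ((ContinuousLinearMap.proj (R := ℂ) (φ := fun _ : τ => ℂ) (i1 k)).analyticAt _).fun_comp h2

/-- **The family of words over the patch.** -/
theorem wordFamily [CompleteSpace X] (W : Rz n i0 i1 Φ) {l1 : ℂ × ℂ} (hl1 : l1 ∈ W.V)
    {δ : ℕ → ℝ} {T : ℕ → (τ → ℂ) → ℂ} {Z : ℕ → ℂ × (τ → ℂ) → τ → ℂ}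
    (hB : ∀ k < n, BFam (Φ k) (i0 k) (i1 k) (W.D k) (W.Z k) (mid W.al k l1) (δ k) (T k) (Z k))
    {x0 : X} {φ : X → Gen n τ → ℂ} (hφ : AnalyticAt ℂ φ x0) (hφ0 : φ x0 = W.Y l1)
    (hrel : ∀ᶠ x in 𝓝 x0, RelY W (φ x)) :
    ∃ AL P : ℕ → (ℂ × ℂ) × X → ℂ,
      (∀ k ≤ n, AnalyticAt ℂ (AL k) (l1, x0) ∧ AnalyticAt ℂ (P k) (l1, x0) ∧
        AL k (l1, x0) = W.al k l1 ∧ P k (l1, x0) = W.p k l1) ∧
      (∀ q, AL 0 q = q.1.1 ∧ P 0 q = q.1.2) ∧
      (∀ k < n, ∀ᶠ q in 𝓝 (l1, x0), Refl (fun ψ => mir i1 Z φ k (ψ, q.2)) (AL k q) (P k q)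
        (AL (k + 1) q) (P (k + 1) q)) ∧
      (∃ r2 > 0, ∀ x ∈ ball x0 r2, ∃ Wx : Rz n i0 i1 Φ, Wx.V = ball l1 r2 ∧
        Wx.Z = (fun k ψ => Z k (ψ, prj k (φ x))) ∧ Wx.al = (fun k l => AL k (l, x)) ∧
        Wx.p = fun k l => P k (l, x)) ∧
      ∀ᶠ x in 𝓝 x0, gv n i1 (fun k ψ => Z k (ψ, prj k (φ x))) (fun k l => AL k (l, x))
        (fun k l => P k (l, x)) (la W l1 0 (φ x), yl 2 0 (φ x)) = φ x := by
  have hb1 : (W.al 0 l1, W.p 0 l1) = l1 := Prod.ext (W.b l1 hl1).1 (W.b l1 hl1).2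
  have hpr : ∀ k < n, prj k (φ x0) = W.Z k (mid W.al k l1) := fun k hk => by
    rw [hφ0, W.prj_Y hk]
  have hmem : ∀ k < n, mid W.al k l1 ∈ W.D k := fun k hk => W.w.mem k hk l1 hl1
  have hmirA : ∀ k < n, AnalyticAt ℂ (mir i1 Z φ k) (mid W.al k l1, x0) := fun k hk => by
    refine analyticAt_mir hφ ?_
    show AnalyticAt ℂ (Z k) (mid W.al k l1, prj k (φ x0))
    rw [hpr k hk]
    exact (hB k hk).aZ _ ⟨hmem k hk, mem_ball_self (hB k hk).pos⟩
  have hmir0 : ∀ k < n, (fun ψ => mir i1 Z φ k (ψ, x0)) =ᶠ[𝓝 (mid W.al k l1)]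
      fun ψ => W.Z k ψ (i1 k) := fun k hk => by
    filter_upwards [(W.oD k hk).mem_nhds (hmem k hk)] with ψ hψ
    show Z k (ψ, prj k (φ x0)) (i1 k) = _
    rw [hpr k hk, (hB k hk).Z0 ψ hψ]
  have hnd : ∀ k < n, (mir i1 Z φ k (mid W.al k l1, x0)
      + D1 (D1 (mir i1 Z φ k)) (mid W.al k l1, x0)) * sin (trn W.al k l1) ≠ 0 := fun k hk => by
    have h1 := hmir0 k hk
    have h2 : D1 (D1 (mir i1 Z φ k)) (mid W.al k l1, x0)
        = deriv (deriv fun ψ => mir i1 Z φ k (ψ, x0)) (mid W.al k l1) := rfl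
    have h3 : mir i1 Z φ k (mid W.al k l1, x0) = W.Z k (mid W.al k l1) (i1 k) := h1.self_of_nhds
    rw [h2, h1.deriv.deriv_eq, h3]
    exact W.w.nd k hk l1 hl1
  obtain ⟨AL, P, hA, h0, hR, δu, hδu, huniq⟩ := H650.word n (H := mir i1 Z φ)
    (al := fun k => W.al k l1) (p := fun k => W.p k l1) (x0 := x0) (fun k hk => hmirA k hk)
    (fun k hk => refl_congr (hmir0 k hk).symm (W.w.rf k hk l1 hl1))
    (fun k hk => left_ne_zero_of_mul (hnd k hk)) (fun k hk => right_ne_zero_of_mul (hnd k hk))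
  simp only [hb1] at hA hR huniq
  refine ⟨AL, P, hA, h0, hR, ?_, ?_⟩
  · -- realizations
    have hmq : ∀ k < n, ContinuousAt (fun q => ((AL k q + AL (k + 1) q) / 2, q.2))
        ((l1, x0) : (ℂ × ℂ) × X) := fun k hk =>
      (((hA k hk.le).1.continuousAt.add (hA (k + 1) hk).1.continuousAt).div_const 2).prodMk
        continuousAt_snd
    have hmq0 : ∀ k < n, ((AL k (l1, x0) + AL (k + 1) (l1, x0)) / 2, x0)
        = (mid W.al k l1, x0) := fun k hk => by
      rw [(hA k hk.le).2.2.1, (hA (k + 1) hk).2.2.1]; rfl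
    have c1 : ∀ᶠ q in 𝓝 ((l1, x0) : (ℂ × ℂ) × X), ∀ k ≤ n,
        AnalyticAt ℂ (AL k) q ∧ AnalyticAt ℂ (P k) q :=
      (Set.finite_le_nat n).eventually_all.2 fun k hk =>
        (hA k hk).1.eventually_analyticAt.and (hA k hk).2.1.eventually_analyticAt
    have c2 : ∀ᶠ q in 𝓝 ((l1, x0) : (ℂ × ℂ) × X), ∀ k < n,
        Refl (fun ψ => mir i1 Z φ k (ψ, q.2)) (AL k q) (P k q) (AL (k + 1) q) (P (k + 1) q) :=
      (Set.finite_lt_nat n).eventually_all.2 fun k hk => hR k hk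
    have c3 : ∀ᶠ q in 𝓝 ((l1, x0) : (ℂ × ℂ) × X), ∀ k < n,
        (mir i1 Z φ k ((AL k q + AL (k + 1) q) / 2, q.2)
          + D1 (D1 (mir i1 Z φ k)) ((AL k q + AL (k + 1) q) / 2, q.2))
          * sin ((AL (k + 1) q - AL k q) / 2) ≠ 0 := by
      refine (Set.finite_lt_nat n).eventually_all.2 fun k hk => ?_
      have hk' : k < n := hk
      have h1 : ContinuousAt (fun v => mir i1 Z φ k v + D1 (D1 (mir i1 Z φ k)) v)
          (mid W.al k l1, x0) :=
        (hmirA k hk).continuousAt.add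
          (H650.analyticAt_D1 (H650.analyticAt_D1 (hmirA k hk))).continuousAt
      have h2 : ContinuousAt (fun q : (ℂ × ℂ) × X =>
          mir i1 Z φ k ((AL k q + AL (k + 1) q) / 2, q.2)
          + D1 (D1 (mir i1 Z φ k)) ((AL k q + AL (k + 1) q) / 2, q.2)) (l1, x0) :=
        ContinuousAt.comp (g := fun v => mir i1 Z φ k v + D1 (D1 (mir i1 Z φ k)) v)
          (f := fun q : (ℂ × ℂ) × X => ((AL k q + AL (k + 1) q) / 2, q.2))
          (by rw [hmq0 k hk]; exact h1) (hmq k hk)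
      have h3 : ContinuousAt (fun q : (ℂ × ℂ) × X => sin ((AL (k + 1) q - AL k q) / 2))
          (l1, x0) :=
        Complex.continuous_sin.continuousAt.comp
          (((hA (k + 1) hk).1.continuousAt.sub (hA k hk'.le).1.continuousAt).div_const 2)
      refine (h2.mul h3).eventually_ne ?_
      show (mir i1 Z φ k ((AL k (l1, x0) + AL (k + 1) (l1, x0)) / 2, x0)
        + D1 (D1 (mir i1 Z φ k)) ((AL k (l1, x0) + AL (k + 1) (l1, x0)) / 2, x0))
        * sin ((AL (k + 1) (l1, x0) - AL k (l1, x0)) / 2) ≠ 0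
      rw [(hA k hk'.le).2.2.1, (hA (k + 1) hk).2.2.1]
      exact hnd k hk
    have c4 : ∀ᶠ q in 𝓝 ((l1, x0) : (ℂ × ℂ) × X), ∀ k < n,
        (AL k q + AL (k + 1) q) / 2 ∈ W.D k := by
      refine (Set.finite_lt_nat n).eventually_all.2 fun k hk => ?_
      have hk' : k < n := hk
      have h1 := (hmq k hk).fst
      refine h1.preimage_mem_nhds ?_
      have h2 : (AL k (l1, x0) + AL (k + 1) (l1, x0)) / 2 = mid W.al k l1 := by
        rw [(hA k hk'.le).2.2.1, (hA (k + 1) hk).2.2.1]; rfl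
      rw [h2]
      exact (W.oD k hk).mem_nhds (hmem k hk)
    have c5 : ∀ᶠ q in 𝓝 ((l1, x0) : (ℂ × ℂ) × X), ∀ k < n,
        prj k (φ q.2) ∈ ball (W.Z k (mid W.al k l1)) (δ k) := by
      refine (Set.finite_lt_nat n).eventually_all.2 fun k hk => ?_
      have h1 : ContinuousAt (fun q : (ℂ × ℂ) × X => prj k (φ q.2)) (l1, x0) := by
        have h2 : ContinuousAt (fun q : (ℂ × ℂ) × X => φ q.2) (l1, x0) :=
          ContinuousAt.comp (g := φ) (f := Prod.snd) hφ.continuousAt continuousAt_snd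
        exact ContinuousAt.comp (g := prj k) (continuous_prj k).continuousAt h2
      refine h1.preimage_mem_nhds ?_
      show ball _ _ ∈ 𝓝 (prj k (φ x0))
      rw [hpr k hk]
      exact ball_mem_nhds _ (hB k hk).pos
    obtain ⟨r2, hr2, hball⟩ := Metric.eventually_nhds_iff_ball.1
      (c1.and (c2.and (c3.and (c4.and c5))))
    refine ⟨r2, hr2, fun x hx => ?_⟩
    have hq : ∀ l ∈ ball l1 r2, ((l, x) : (ℂ × ℂ) × X) ∈ ball (l1, x0) r2 := fun l hl => by
      rw [← ball_prod_same]; exact ⟨hl, hx⟩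
    have hq1 : ((l1, x) : (ℂ × ℂ) × X) ∈ ball (l1, x0) r2 := hq l1 (mem_ball_self hr2)
    refine ⟨⟨ball l1 r2, W.D, fun k ψ => Z k (ψ, prj k (φ x)), fun k l => AL k (l, x),
      fun k l => P k (l, x), isOpen_ball, W.oD, ?_, ?_, ?_⟩, rfl, rfl, rfl, rfl⟩
    · intro k hk
      exact (hB k hk).st _ ((hball _ hq1).2.2.2.2 k hk)
    · refine ⟨?_, ?_, ?_, ?_, ?_⟩
      · intro k hk l hl
        exact AnalyticAt.fun_comp (g := AL k) (f := fun l : ℂ × ℂ => (l, x))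
          ((hball _ (hq l hl)).1 k hk).1 (analyticAt_id.prod analyticAt_const)
      · intro k hk l hl
        exact AnalyticAt.fun_comp (g := P k) (f := fun l : ℂ × ℂ => (l, x))
          ((hball _ (hq l hl)).1 k hk).2 (analyticAt_id.prod analyticAt_const)
      · intro k hk l hl
        exact (hball _ (hq l hl)).2.1 k hk
      · intro k hk l hl
        exact (hball _ (hq l hl)).2.2.1 k hk
      · intro k hk l hl
        exact (hball _ (hq l hl)).2.2.2.1 k hk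
    · intro l hl
      exact h0 (l, x)
  · -- the base point
    have hdec := decode W hB
    rw [← hφ0] at hdec
    have d1 := hφ.continuousAt.eventually hdec
    have d2 : ∀ᶠ x in 𝓝 x0, ∀ k ≤ n, dist (la W l1 k (φ x)) (W.al k l1) < δu ∧
        dist (yl 2 k (φ x)) (W.p k l1) < δu := by
      refine (Set.finite_le_nat n).eventually_all.2 fun k hk => ?_
      have hk' : k ≤ n := hk
      have h1 := la_cont W l1 hk'
      rw [← hφ0] at h1
      have h2 : ContinuousAt (fun x => la W l1 k (φ x)) x0 :=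
        ContinuousAt.comp (g := la W l1 k) h1.1 hφ.continuousAt
      have h3 : ContinuousAt (fun x => yl 2 k (φ x)) x0 :=
        ContinuousAt.comp (g := yl 2 k) (continuous_yl 2 k).continuousAt hφ.continuousAt
      have h4 : la W l1 k (φ x0) = W.al k l1 := h1.2
      have h5 : yl 2 k (φ x0) = W.p k l1 := by rw [hφ0, W.yl2 hk']
      have h6 := Metric.continuousAt_iff'.1 h2 δu hδu
      have h7 := Metric.continuousAt_iff'.1 h3 δu hδu
      rw [h4] at h6
      rw [h5] at h7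
      exact h6.and h7
    have d3 : ∀ᶠ x in 𝓝 x0, (((la W l1 0 (φ x), yl 2 0 (φ x)), x) : (ℂ × ℂ) × X)
        ∈ ball (l1, x0) δu := by
      have h1 := la_cont W l1 (Nat.zero_le n)
      rw [← hφ0] at h1
      have h2 : ContinuousAt (fun x => la W l1 0 (φ x)) x0 :=
        ContinuousAt.comp (g := la W l1 0) h1.1 hφ.continuousAt
      have h3 : ContinuousAt (fun x => yl 2 0 (φ x)) x0 :=
        ContinuousAt.comp (g := yl 2 0) (continuous_yl 2 0).continuousAt hφ.continuousAt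
      have h4 : ContinuousAt (fun x => (((la W l1 0 (φ x), yl 2 0 (φ x)), x) : (ℂ × ℂ) × X)) x0 :=
        (h2.prodMk h3).prodMk continuousAt_id
      refine h4.preimage_mem_nhds ?_
      have h5 : (la W l1 0 (φ x0), yl 2 0 (φ x0)) = l1 := by
        rw [h1.2, hφ0, W.yl2 (Nat.zero_le n), hb1]
      rw [h5]
      exact ball_mem_nhds _ hδu
    filter_upwards [hrel, d1, d2, d3] with x hx1 hx2 hx3 hx4
    obtain ⟨h1, h2⟩ := hx2 hx1
    have h3 := huniq ((la W l1 0 (φ x), yl 2 0 (φ x)), x) hx4 (fun k => la W l1 k (φ x))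
      (fun k => yl 2 k (φ x)) hx3 rfl rfl h1
    refine Eq.trans ?_ h2
    exact gv_congr (fun k hk => (h3 k hk).1.symm) (fun k hk => (h3 k hk).2.symm)

end

end Vale.Agent.P097.H365.F5
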