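import Vale.Agent.P097.H365.F5.Closed

/-!
# F5a: local inverse in two variables, displacement of a mirror family
-/

namespace Vale.Agent.P097.H365.F5

open Complex Metric Set Filter Topology

theorem analyticAt_jac {f g : ℂ × ℂ → ℂ} {u : ℂ × ℂ} (hf : AnalyticAt ℂ f u)
    (hg : AnalyticAt ℂ g u) : AnalyticAt ℂ (jac f g) u := by
  have h : ∀ {f : ℂ × ℂ → ℂ}, AnalyticAt ℂ f u → ∀ e : ℂ × ℂ,
      AnalyticAt ℂ (fun v => fderiv ℂ f v e) u := fun {f} hf e =>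
    (ContinuousLinearMap.apply ℂ ℂ e).analyticAt _ |>.fun_comp hf.fderiv
  exact ((h hf _).mul (h hg _)).sub ((h hf _).mul (h hg _))

/-- Local inverse of a pair of functions of two variables. -/
theorem exists_inv {f g : ℂ × ℂ → ℂ} {u0 : ℂ × ℂ} (hf : AnalyticAt ℂ f u0)
    (hg : AnalyticAt ℂ g u0) (hj : jac f g u0 ≠ 0) :
    ∃ G : ℂ × ℂ → ℂ × ℂ, AnalyticAt ℂ G (f u0, g u0) ∧ G (f u0, g u0) = u0 ∧
      (∀ᶠ l in 𝓝 (f u0, g u0), f (G l) = l.1 ∧ g (G l) = l.2) ∧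
      ∀ᶠ u in 𝓝 u0, G (f u, g u) = u := by
  set F : ℂ × ℂ → ℂ × ℂ := fun u => (f u, g u) with hF
  have hFa : AnalyticAt ℂ F u0 := hf.prod hg
  set M : ℂ × ℂ →L[ℂ] ℂ × ℂ := (fderiv ℂ f u0).prod (fderiv ℂ g u0) with hM
  have hinj : Function.Injective (M : ℂ × ℂ →ₗ[ℂ] ℂ × ℂ) := by
    rw [injective_iff_map_eq_zero]
    rintro ⟨a, b⟩ hab
    have hdec : ((a, b) : ℂ × ℂ) = a • ((1, 0) : ℂ × ℂ) + b • ((0, 1) : ℂ × ℂ) := by simp
    have h1 : fderiv ℂ f u0 (a, b) = 0 := congrArg Prod.fst hab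
    have h2 : fderiv ℂ g u0 (a, b) = 0 := congrArg Prod.snd hab
    rw [hdec, map_add, map_smul, map_smul, smul_eq_mul, smul_eq_mul] at h1 h2
    have ha : jac f g u0 * a = 0 := by
      unfold jac
      linear_combination (fderiv ℂ g u0 (0, 1)) * h1 - (fderiv ℂ f u0 (0, 1)) * h2
    have hb : jac f g u0 * b = 0 := by
      unfold jac
      linear_combination (fderiv ℂ f u0 (1, 0)) * h2 - (fderiv ℂ g u0 (1, 0)) * h1
    rw [(mul_eq_zero.1 ha).resolve_left hj, (mul_eq_zero.1 hb).resolve_left hj]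
    rfl
  set L : (ℂ × ℂ) ≃L[ℂ] (ℂ × ℂ) :=
    (LinearEquiv.ofInjectiveEndo (M : ℂ × ℂ →ₗ[ℂ] ℂ × ℂ) hinj).toContinuousLinearEquiv with hL
  have hLM : (L : ℂ × ℂ →L[ℂ] ℂ × ℂ) = M := by
    ext <;> rfl
  have hFd : HasFDerivAt F (L : ℂ × ℂ →L[ℂ] ℂ × ℂ) u0 := by
    rw [hLM]
    exact hf.differentiableAt.hasFDerivAt.prodMk hg.differentiableAt.hasFDerivAt
  have hn : (⊤ : WithTop ℕ∞) ≠ 0 := by simp
  have hFc : ContDiffAt ℂ (⊤ : WithTop ℕ∞) F u0 := hFa.contDiffAt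
  have hst : HasStrictFDerivAt F (L : ℂ × ℂ →L[ℂ] ℂ × ℂ) u0 :=
    hFc.hasStrictFDerivAt' hFd hn
  refine ⟨hst.localInverse F L u0, ?_, hst.localInverse_apply_image, ?_, ?_⟩
  · have h1 := hFc.to_localInverse hFd hn
    exact h1.analyticAt
  · filter_upwards [hst.eventually_right_inverse] with l hl
    exact ⟨congrArg Prod.fst hl, congrArg Prod.snd hl⟩
  · exact hst.eventually_left_inverse

/-- Displacement of a mirror in a family: if the angle does not move, the mirror moves by the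
variation of its support number. -/
theorem BFam.disp {τ : Type} [Fintype τ] {Φ : τ → MvPolynomial τ ℂ} {i0 i1 : τ} {D : Set ℂ}
    {z : ℂ → τ → ℂ} {ψ0 : ℂ} {δ : ℝ} {T : (τ → ℂ) → ℂ} {Z : ℂ × (τ → ℂ) → τ → ℂ}
    (h : BFam Φ i0 i1 D z ψ0 δ T Z) (hψ : ψ0 ∈ D) {y' : τ → ℂ} (hy : y' i0 = 0) :
    fderiv ℂ (fun y => Z (ψ0, y) i1) (z ψ0) y' = y' i1 := by
  have hm : z ψ0 ∈ ball (z ψ0) δ := mem_ball_self h.pos
  set y : ℂ → τ → ℂ := fun s => z ψ0 + s • y' with hy0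
  have hy1 : y 0 = z ψ0 := by simp [hy0]
  have hyd : HasDerivAt y y' 0 := by
    have h1 : HasDerivAt (fun s : ℂ => s • y') ((1 : ℂ) • y') 0 := (hasDerivAt_id (0 : ℂ)).smul_const _
    rw [one_smul] at h1
    exact h1.const_add _
  have hev : ∀ᶠ s in 𝓝 (0 : ℂ), y s ∈ ball (z ψ0) δ :=
    hyd.continuousAt.preimage_mem_nhds (by rw [hy1]; exact ball_mem_nhds _ h.pos)
  -- the time does not move
  have hTd : HasDerivAt (fun s => T (y s)) (fderiv ℂ T (z ψ0) y') 0 := by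
    have h1 : HasFDerivAt T (fderiv ℂ T (z ψ0)) (y 0) := by
      rw [hy1]; exact (h.aT _ hm).differentiableAt.hasFDerivAt
    exact h1.comp_hasDerivAt (0 : ℂ) hyd
  have hT0 : fderiv ℂ T (z ψ0) y' = 0 := by
    have h1 : HasDerivAt (fun s => exp (I * T (y s)))
        (exp (I * T (y 0)) * (I * fderiv ℂ T (z ψ0) y')) 0 := (hTd.const_mul I).cexp
    have h2 : (fun s => exp (I * T (y s))) =ᶠ[𝓝 0] fun _ => z ψ0 i0 := by
      filter_upwards [hev] with s hs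
      rw [(h.TD _ hs).2]
      simp [hy0, hy]
    have h3 := (h1.congr_of_eventuallyEq h2.symm).unique (hasDerivAt_const (0 : ℂ) (z ψ0 i0))
    have h4 := (mul_eq_zero.1 h3).resolve_left (Complex.exp_ne_zero _)
    exact (mul_eq_zero.1 h4).resolve_left Complex.I_ne_zero
  -- the curve (T y, y)
  have hZa : AnalyticAt ℂ Z (ψ0, z ψ0) := h.aZ _ ⟨hψ, hm⟩
  set A := fderiv ℂ Z (ψ0, z ψ0) with hA
  have hZ : HasFDerivAt Z A (ψ0, z ψ0) := hZa.differentiableAt.hasFDerivAt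
  have hcurve : HasDerivAt (fun s => Z (T (y s), y s)) (A (0, y')) 0 := by
    have h1 : HasDerivAt (fun s => (T (y s), y s)) ((0 : ℂ), y') 0 := by
      have h0 := hTd.prodMk hyd
      rw [hT0] at h0
      exact h0
    have h2 : HasFDerivAt Z A (T (y 0), y 0) := by rw [hy1, h.T0]; exact hZ
    exact h2.comp_hasDerivAt (0 : ℂ) h1
  have hcurve2 : HasDerivAt y (A (0, y')) 0 := by
    refine hcurve.congr_of_eventuallyEq ?_
    filter_upwards [hev] with s hs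
    exact (h.ZT _ hs).symm
  have h5 : A (0, y') = y' := hcurve2.unique hyd
  have h6 : HasFDerivAt (fun y => Z (ψ0, y)) (A ∘L ContinuousLinearMap.inr ℂ ℂ (τ → ℂ)) (z ψ0) := by
    have h7 : HasFDerivAt (fun y : τ → ℂ => (ψ0, y)) (ContinuousLinearMap.inr ℂ ℂ (τ → ℂ)) (z ψ0) :=
      hasFDerivAt_prodMk_right ψ0 (z ψ0)
    exact HasFDerivAt.comp (z ψ0) (f := fun y : τ → ℂ => (ψ0, y)) hZ h7
  have h8 : HasFDerivAt (fun y => Z (ψ0, y) i1)
      ((ContinuousLinearMap.proj (R := ℂ) (φ := fun _ : τ => ℂ) i1)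
        ∘L (A ∘L ContinuousLinearMap.inr ℂ ℂ (τ → ℂ))) (z ψ0) :=
    (ContinuousLinearMap.proj (R := ℂ) (φ := fun _ : τ => ℂ) i1).hasFDerivAt.comp (z ψ0) h6
  rw [h8.fderiv]
  show A (0, y') i1 = y' i1
  rw [h5]

end Vale.Agent.P097.H365.F5
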