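import Vale.Agent.P097.H365.F5.Core

/-!
# F5a: deformation of a closed word
-/

namespace Vale.Agent.P097.H365.F5

open Complex Metric Set Filter Topology
open Vale.Agent.P097.H650 (Refl SolAt evC evM evM_evC Ind exists_generic)

set_option linter.unusedSectionVars false

theorem WordOn.midA {n : ℕ} {U : Set (ℂ × ℂ)} {H : ℕ → ℂ → ℂ} {D : ℕ → Set ℂ}
    {al p : ℕ → ℂ × ℂ → ℂ} (w : WordOn n U H D al p) {k : ℕ} (hk : k < n) :
    AnalyticOnNhd ℂ (mid al k) U := fun u hu =>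
  ((w.aA k hk.le u hu).fun_add (w.aA (k + 1) hk u hu)).fun_div analyticAt_const two_ne_zero

/-- Deformed chain over the original coordinates. -/
theorem lift_of {n : ℕ} {U : Set (ℂ × ℂ)} (hU : IsOpen U) {al p : ℕ → ℂ × ℂ → ℂ}
    {f g : ℂ × ℂ → ℂ} (hf : AnalyticOnNhd ℂ f U) (hg : AnalyticOnNhd ℂ g U)
    (hfg : ∀ u ∈ U, al 0 u = f u ∧ p 0 u = g u) {u1 : ℂ × ℂ} (hu1 : u1 ∈ U)
    {l1 : ℂ × ℂ} (hl1 : (f u1, g u1) = l1) {M : ℕ → ℂ × ℂ → ℂ} {AL P : ℕ → (ℂ × ℂ) × ℂ → ℂ}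
    (h1 : ∀ k ≤ n, AnalyticAt ℂ (AL k) (l1, 0) ∧ AnalyticAt ℂ (P k) (l1, 0) ∧
        AL k (l1, 0) = al k u1 ∧ P k (l1, 0) = p k u1)
    (h2 : ∀ q, AL 0 q = q.1.1 ∧ P 0 q = q.1.2)
    (h3 : ∀ k < n, ∀ᶠ q in 𝓝 (l1, (0 : ℂ)), Refl (fun ψ => M k (ψ, q.2)) (AL k q) (P k q)
        (AL (k + 1) q) (P (k + 1) q)) :
    Lift n al p M u1 (fun k v => AL k ((f v.1, g v.1), v.2))
      (fun k v => P k ((f v.1, g v.1), v.2)) := by
  set crv : (ℂ × ℂ) × ℂ → (ℂ × ℂ) × ℂ := fun v => ((f v.1, g v.1), v.2) with hcrv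
  have hA : AnalyticAt ℂ crv (u1, 0) := by
    refine AnalyticAt.prod (AnalyticAt.prod ?_ ?_) analyticAt_snd
    · exact AnalyticAt.fun_comp (g := f) (f := Prod.fst) (hf u1 hu1) analyticAt_fst
    · exact AnalyticAt.fun_comp (g := g) (f := Prod.fst) (hg u1 hu1) analyticAt_fst
  have h0 : crv (u1, 0) = (l1, 0) := by
    show ((f u1, g u1), (0 : ℂ)) = _
    rw [hl1]
  have hcomp : ∀ {F : (ℂ × ℂ) × ℂ → ℂ}, AnalyticAt ℂ F (l1, 0) →
      AnalyticAt ℂ (fun q => F (crv q)) (u1, 0) := fun {F} hF =>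
    AnalyticAt.fun_comp (g := F) (f := crv) (by rw [h0]; exact hF) hA
  refine ⟨fun k hk => hcomp (h1 k hk).1, fun k hk => hcomp (h1 k hk).2.1, fun k hk => ?_,
    fun k hk => ?_, ?_, fun k hk => ?_⟩
  · show AL k (crv (u1, 0)) = _
    rw [h0]; exact (h1 k hk).2.2.1
  · show P k (crv (u1, 0)) = _
    rw [h0]; exact (h1 k hk).2.2.2
  · have h4 : ∀ᶠ v in 𝓝 ((u1, 0) : (ℂ × ℂ) × ℂ), v.1 ∈ U := by
      have h5 : ContinuousAt (fun v : (ℂ × ℂ) × ℂ => v.1) (u1, 0) := continuousAt_fst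
      exact h5.preimage_mem_nhds (hU.mem_nhds hu1)
    filter_upwards [h4] with v hv
    rw [(hfg v.1 hv).1, (hfg v.1 hv).2]
    exact h2 _
  · exact hA.continuousAt.eventually (by rw [h0]; exact h3 k hk)

theorem f5a : F5a := by
  intro n n' τ τ' _ _ U hUo hUp i0 i1 c R V h Φ z al p hR hVo hcV hP hind hW hjm i0' i1' c' R' V'
    h' Φ' z' al' p' hR' hVo' hcV' hP' hW' hj0 hfst hlst
  classical
  have hbV : ball c R ⊆ V := ball_subset_closedBall.trans hcV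
  have hPb : PState Φ i0 i1 (ball c R) h z :=
    ⟨hP.hΦ, fun ψ hψ => hP.der ψ (hbV hψ), fun ψ hψ => hP.hE ψ (hbV hψ),
      fun ψ hψ => hP.hH ψ (hbV hψ)⟩
  obtain ⟨hne, J, hJ0, hJ1, hJi, hJP⟩ := exists_J hPb hind
  have hza : AnalyticOnNhd ℂ z (ball c R) := hPb.an isOpen_ball
  -- generic point
  let DD : Option {q : Fin n × Fin n // q.1 ≠ q.2} → ℂ × ℂ → ℂ := fun o =>
    o.elim (jac (al 0) (p 0)) (fun q => jac (mid al q.1.1) (mid al q.1.2))
  obtain ⟨u2, ⟨-, hu2⟩, hD⟩ := exists_generic (D := DD) hUo hUp (by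
      rintro (_ | q) u hu
      · exact analyticAt_jac (hW.aA 0 (Nat.zero_le n) u hu) (hW.pA 0 (Nat.zero_le n) u hu)
      · exact analyticAt_jac (hW.midA q.1.1.2 u hu) (hW.midA q.1.2.2 u hu)) (by
      rintro (_ | q)
      · exact hj0
      · exact hjm q.1.1 q.1.1.2 q.1.2 q.1.2.2 (fun h => q.2 (Fin.ext h))) isOpen_univ (by
      obtain ⟨u, hu, -⟩ := hj0
      exact ⟨u, mem_univ _, hu⟩)
  obtain ⟨Gi, hGa, hG0, hGr, hGl⟩ := exists_inv (hW.aA 0 (Nat.zero_le n) u2 hu2)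
    (hW.pA 0 (Nat.zero_le n) u2 hu2) (hD none)
  have hGU : ∀ᶠ l in 𝓝 (al 0 u2, p 0 u2), Gi l ∈ U :=
    hGa.continuousAt.preimage_mem_nhds (by rw [hG0]; exact hUo.mem_nhds hu2)
  obtain ⟨r, hr, hball⟩ := Metric.eventually_nhds_iff_ball.1
    (hGa.eventually_analyticAt.and (hGU.and hGr))
  set l2 : ℂ × ℂ := (al 0 u2, p 0 u2) with hl2
  have hGan : AnalyticOnNhd ℂ Gi (ball l2 r) := fun l hl => (hball l hl).1
  have hGiU : ∀ l ∈ ball l2 r, Gi l ∈ U := fun l hl => (hball l hl).2.1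
  -- the two words in the coordinates of the first line
  let W : Rz n (fun _ => i0) (fun _ => i1) (fun _ => Φ) :=
    { V := ball l2 r
      D := fun _ => ball c R
      Z := fun _ => z
      al := fun k l => al k (Gi l)
      p := fun k l => p k (Gi l)
      oV := isOpen_ball
      oD := fun _ _ => isOpen_ball
      st := fun _ _ => hP.restr hbV
      w := (hW.congr (fun _ _ => isOpen_ball)
        (fun _ _ ψ hψ => (hPb.hH ψ hψ).symm)).comp hGan hGiU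
      b := fun l hl => (hball l hl).2.2 }
  have hbV' : ∀ k < n', ball (c' k) (R' k) ⊆ V' k := fun k hk =>
    ball_subset_closedBall.trans (hcV' k hk)
  let W' : Rz n' i0' i1' Φ' :=
    { V := ball l2 r
      D := fun k => ball (c' k) (R' k)
      Z := z'
      al := fun k l => al' k (Gi l)
      p := fun k l => p' k (Gi l)
      oV := isOpen_ball
      oD := fun _ _ => isOpen_ball
      st := fun k hk => (hP' k hk).restr (hbV' k hk)
      w := (hW'.congr (fun _ _ => isOpen_ball)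
        (fun k hk ψ hψ => ((hP' k hk).hH ψ (hbV' k hk hψ)).symm)).comp hGan hGiU
      b := fun l hl => by
        have h1 := hfst _ (hGiU l hl)
        rw [h1.1, h1.2]
        exact (hball l hl).2.2 }
  have hpair : ∀ i < n, ∀ j < n, i ≠ j → Ind (evC (ℂ × ℂ)) W.V (fun l =>
      Sum.elim (fun m : J => z (mid W.al i l) m) (fun m : J => z (mid W.al j l) m)) := by
    intro i hi j hj hij
    obtain ⟨G2, hG2a, hG20, hG2r, -⟩ := exists_inv (hW.midA hi u2 hu2) (hW.midA hj u2 hu2)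
      (hD (some ⟨(⟨i, hi⟩, ⟨j, hj⟩), fun h => hij (congrArg Fin.val h)⟩))
    have e1 : ∀ᶠ v in 𝓝 (mid al i u2, mid al j u2),
        Gi (al 0 (G2 v), p 0 (G2 v)) = G2 v := by
      have h1 := hG2a.continuousAt
      exact h1.eventually (by rw [hG20]; exact hGl)
    have e2 : ∀ᶠ v in 𝓝 (mid al i u2, mid al j u2), (al 0 (G2 v), p 0 (G2 v)) ∈ ball l2 r := by
      have h1 : ContinuousAt (fun u => (al 0 u, p 0 u)) (G2 (mid al i u2, mid al j u2)) := by
        rw [hG20]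
        exact (hW.aA 0 (Nat.zero_le n) u2 hu2).continuousAt.prodMk
          (hW.pA 0 (Nat.zero_le n) u2 hu2).continuousAt
      have h2 : ContinuousAt (fun v => (al 0 (G2 v), p 0 (G2 v))) (mid al i u2, mid al j u2) :=
        ContinuousAt.comp (g := fun u => (al 0 u, p 0 u)) (f := G2) h1 hG2a.continuousAt
      refine h2.preimage_mem_nhds ?_
      rw [hG20]
      exact ball_mem_nhds _ hr
    obtain ⟨r', hr', hb'⟩ := Metric.eventually_nhds_iff_ball.1 (hG2r.and (e1.and e2))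
    refine pair_ind (convex_ball c R).isPreconnected hza hJi (hW.mem i hi u2 hu2)
      (hW.mem j hj u2 hu2) hr' (fun x hx y hy => ?_)
    obtain ⟨h1, h2, h3⟩ := hb' (x, y) (by rw [← ball_prod_same]; exact ⟨hx, hy⟩)
    refine ⟨(al 0 (G2 (x, y)), p 0 (G2 (x, y))), h3, ?_, ?_⟩
    · show mid al i (Gi (al 0 (G2 (x, y)), p 0 (G2 (x, y)))) = x
      rw [h2]; exact h1.1
    · show mid al j (Gi (al 0 (G2 (x, y)), p 0 (G2 (x, y)))) = y
      rw [h2]; exact h1.2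
  have hout : ∀ l ∈ W.V, exp (I * W'.al n' l) = exp (I * W.al n l) ∧ W'.p n' l = W.p n l :=
    fun l hl => hlst _ (hGiU l hl)
  obtain ⟨l1, hl1, e0, he0, HN, HS, d1, d2, d3, d4, d5, AL, P, AL', P', m0, f1, f2, f3, f4, f5,
    f6, f7, f8⟩ := core hR hVo hcV hP hne hJ0 hJ1 hJP W (fun _ => rfl) (fun _ => rfl) hpair
    hR' hVo' hcV' hP' W' (fun _ => rfl) (fun _ => rfl) rfl (convex_ball l2 r).isPreconnected
    ⟨l2, mem_ball_self hr⟩ hout
  have hu1 : Gi l1 ∈ U := hGiU l1 hl1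
  have hlam : (al 0 (Gi l1), p 0 (Gi l1)) = l1 :=
    Prod.ext (hball l1 hl1).2.2.1 (hball l1 hl1).2.2.2
  have hfA := hW.aA 0 (Nat.zero_le n)
  have hgA := hW.pA 0 (Nat.zero_le n)
  refine ⟨Gi l1, hu1, e0, he0, HN, HS, d1, d2, d3, d4, d5, _, _, _, _, m0,
    lift_of hUo hfA hgA (fun u _ => ⟨rfl, rfl⟩) hu1 hlam f1 f2 f3,
    lift_of hUo hfA hgA hfst hu1 hlam f4 f5 f6, f7, ?_⟩
  have hc : ContinuousAt (fun v : (ℂ × ℂ) × ℂ => ((al 0 v.1, p 0 v.1), v.2)) (Gi l1, 0) := by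
    refine ContinuousAt.prodMk (ContinuousAt.prodMk ?_ ?_) continuousAt_snd
    · exact ContinuousAt.comp (g := al 0) (f := Prod.fst) (hfA _ hu1).continuousAt
        continuousAt_fst
    · exact ContinuousAt.comp (g := p 0) (f := Prod.fst) (hgA _ hu1).continuousAt
        continuousAt_fst
  exact hc.eventually (p := fun q => AL' n' q = AL n q + m0 ∧ P' n' q = P n q) (by
    show ∀ᶠ q in 𝓝 ((al 0 (Gi l1), p 0 (Gi l1)), (0 : ℂ)), AL' n' q = AL n q + m0 ∧ P' n' q = P n q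
    rw [hlam]
    exact f8)

end Vale.Agent.P097.H365.F5
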