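import Vale.Agent.P097.H365.F5.Inv
import Vale.Agent.P097.H365.F5.Alpha

/-!
# F5a: independent states of two letters
-/

namespace Vale.Agent.P097.H365.F5

open Complex Metric Set Filter Topology Polynomial
open Vale.Agent.P097.H650 (Refl SolAt evC evM evM_evC Ind exists_basis evM_option ind_two)

set_option linter.unusedSectionVars false

theorem PState.restr {τ : Type} [Fintype τ] {Φ : τ → MvPolynomial τ ℂ} {i0 i1 : τ}
    {V D : Set ℂ} {H : ℂ → ℂ} {z : ℂ → τ → ℂ} (h : PState Φ i0 i1 V H z) (hD : D ⊆ V) :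
    PState Φ i0 i1 D (fun ψ => z ψ i1) z :=
  ⟨h.hΦ, fun ψ hψ => h.der ψ (hD hψ), fun ψ hψ => h.hE ψ (hD hψ), fun _ _ => rfl⟩

theorem PState.an {τ : Type} [Fintype τ] {Φ : τ → MvPolynomial τ ℂ} {i0 i1 : τ}
    {D : Set ℂ} {H : ℂ → ℂ} {z : ℂ → τ → ℂ} (h : PState Φ i0 i1 D H z) (hD : IsOpen D) :
    AnalyticOnNhd ℂ z D := by
  have hd : DifferentiableOn ℂ z D := fun s hs =>
    (h.der s hs).differentiableAt.differentiableWithinAt
  exact fun s hs => hd.analyticAt (hD.mem_nhds hs)

/-- Maximal independent set of coordinates of the state containing the angle and the support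
number. -/
theorem exists_J {τ : Type} [Fintype τ] {Φ : τ → MvPolynomial τ ℂ} {i0 i1 : τ}
    {D : Set ℂ} {h : ℂ → ℂ} {z : ℂ → τ → ℂ} (hP : PState Φ i0 i1 D h z)
    (hind : ∀ Q : MvPolynomial (Fin 2) ℂ,
      (∀ ψ ∈ D, MvPolynomial.eval ![exp (I * ψ), h ψ] Q = 0) → Q = 0) :
    i0 ≠ i1 ∧ ∃ J : Set τ, i0 ∈ J ∧ i1 ∈ J ∧ Ind (evC ℂ) D (fun u (i : J) => z u i) ∧
      ∀ m ∉ J, ∃ P : Polynomial (MvPolynomial J ℂ),
        (∀ u ∈ D, P.eval₂ (evM (evC ℂ) u (fun i : J => z u i)) (z u m) = 0) ∧
        ∃ u ∈ D, (derivative P).eval₂ (evM (evC ℂ) u (fun i : J => z u i)) (z u m) ≠ 0 := by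
  classical
  have hne : i0 ≠ i1 := by
    intro heq
    have h1 := hind (MvPolynomial.X 0 - MvPolynomial.X 1) (fun ψ hψ => by
      simp only [map_sub, MvPolynomial.eval_X]
      show exp (I * ψ) - h ψ = 0
      rw [← hP.hE ψ hψ, ← hP.hH ψ hψ, heq, sub_self])
    have h2 : (MvPolynomial.X 0 : MvPolynomial (Fin 2) ℂ) = MvPolynomial.X 1 := sub_eq_zero.1 h1
    exact absurd (MvPolynomial.X_injective h2) (by decide)
  refine ⟨hne, ?_⟩
  have h0 : Ind (evC ℂ) D (fun u (i : ({i0, i1} : Set τ)) => z u i) := by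
    intro Q hQ
    let e : ({i0, i1} : Set τ) → Fin 2 := fun i => if (i : τ) = i0 then 0 else 1
    have he : Function.Injective e := by
      rintro ⟨a, ha⟩ ⟨b, hb⟩ hab
      apply Subtype.ext
      simp only [e] at hab
      rcases ha with rfl | rfl <;> rcases hb with rfl | rfl
      · rfl
      · simp [hne.symm] at hab
      · simp [hne.symm] at hab
      · rfl
    apply MvPolynomial.rename_injective _ he
    rw [map_zero]
    apply hind
    intro ψ hψ
    rw [MvPolynomial.eval_rename]
    have h1 := hQ ψ hψ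
    rw [evM_evC] at h1
    have h2 : (![exp (I * ψ), h ψ] ∘ e) = fun i : ({i0, i1} : Set τ) => z ψ i := by
      funext i
      obtain ⟨a, ha⟩ := i
      rcases ha with rfl | rfl
      · simp only [e, Function.comp, if_true]
        exact (hP.hE ψ hψ).symm
      · simp only [e, Function.comp, hne.symm, if_false]
        exact (hP.hH ψ hψ).symm
    rw [h2]
    exact h1
  obtain ⟨J, hJ0, hJi, hJP⟩ := exists_basis (ev := evC ℂ) (F := z) {i0, i1} h0
  exact ⟨J, hJ0 (by simp), hJ0 (by simp), hJi, hJP⟩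

section

variable {E : Type*} [NormedAddCommGroup E] [NormedSpace ℂ E]

theorem ind_range {ι α : Type} {U : Set E} {F : E → ι → ℂ} {ρ : α → ι}
    (hρ : Function.Injective ρ) (h : Ind (evC E) U (fun u x => F u (ρ x))) :
    Ind (evC E) U (fun u (i : range ρ) => F u i) := by
  intro Q hQ
  let e : α ≃ range ρ := Equiv.ofInjective ρ hρ
  have h1 : MvPolynomial.rename e.symm Q = 0 := by
    apply h
    intro u hu
    have h2 := hQ u hu
    rw [evM_evC] at h2 ⊢
    rw [MvPolynomial.eval_rename]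
    have h3 : ((fun x => F u (ρ x)) ∘ e.symm) = fun i : range ρ => F u i := by
      funext i
      obtain ⟨x, rfl⟩ := e.surjective i
      simp only [Function.comp, Equiv.symm_apply_apply]
      rfl
    rw [h3]; exact h2
  exact MvPolynomial.rename_injective _ e.symm.injective (by rw [h1, map_zero])

/-- An algebraic relation between coordinates of the state is a dependence of the generators. -/
theorem not_ind {ι τ : Type} {B : Set E} {F : E → ι → ℂ} {J : Set τ} {ρ : J → ι}
    (hρ : Function.Injective ρ) {m : ι} {P : Polynomial (MvPolynomial J ℂ)}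
    (hP0 : P ≠ 0) (hP : ∀ l ∈ B, P.eval₂ (evM (evC E) l (fun i : J => F l (ρ i))) (F l m) = 0) :
    ¬ Ind (evC E) B (fun u (o : Option (range ρ)) => o.elim (F u m) (fun i : range ρ => F u i)) := by
  intro h
  let e : J ≃ range ρ := Equiv.ofInjective ρ hρ
  have h1 := h (MvPolynomial.rename (Option.map e)
    ((MvPolynomial.optionEquivLeft ℂ J).symm P)) (fun l hl => by
      rw [evM_evC, MvPolynomial.eval_rename]
      have h2 : ((fun o : Option (range ρ) => o.elim (F l m) (fun i : range ρ => F l i))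
          ∘ Option.map e) = fun o : Option J => o.elim (F l m) (fun i : J => F l (ρ i)) := by
        funext o
        rcases o with _ | i <;> rfl
      rw [h2, ← evM_evC l, evM_option, AlgEquiv.apply_symm_apply]
      exact hP l hl)
  have h3 : (MvPolynomial.optionEquivLeft ℂ J).symm P = 0 :=
    MvPolynomial.rename_injective _ (Option.map_injective e.injective) (by rw [h1, map_zero])
  exact hP0 ((MvPolynomial.optionEquivLeft ℂ J).symm.map_eq_zero_iff.1 h3)

/-- Joint independence of the states of two letters. -/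
theorem pair_ind {τ : Type} [Fintype τ] {D : Set ℂ} (hD : IsPreconnected D)
    {z : ℂ → τ → ℂ} (hz : AnalyticOnNhd ℂ z D) {J : Set τ}
    (hJ : Ind (evC ℂ) D (fun u (i : J) => z u i)) {B : Set E} {f g : E → ℂ} {a b : ℂ}
    (ha : a ∈ D) (hb : b ∈ D) {r : ℝ} (hr : 0 < r)
    (hfg : ∀ x ∈ ball a r, ∀ y ∈ ball b r, ∃ l ∈ B, f l = x ∧ g l = y) :
    Ind (evC E) B (fun l => Sum.elim (fun i : J => z (f l) i) (fun i : J => z (g l) i)) := by
  classical
  let _ : Fintype J := Fintype.ofFinite J
  have hzJ : AnalyticOnNhd ℂ (fun u (i : J) => z u i) D := fun u hu => AnalyticAt.pi fun i =>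
    ((ContinuousLinearMap.proj (R := ℂ) (φ := fun _ : τ => ℂ) (i : τ)).analyticAt _).fun_comp
      (hz u hu)
  have key : ∀ c ∈ D, ∀ Q : MvPolynomial J ℂ,
      (∀ x ∈ ball c r, MvPolynomial.eval (fun i : J => z x i) Q = 0) → Q = 0 := by
    intro c hc Q hQ
    refine H650.Ind.mono_nhds hD (fun c u _ => analyticAt_const) hzJ hJ hc Q ?_
    filter_upwards [ball_mem_nhds c hr] with x hx
    rw [evM_evC]
    exact hQ x hx
  exact ind_two (a := f) (b := g) (G := fun x (i : J) => z x i) (G' := fun x (i : J) => z x i)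
    hfg (key a ha) (key b hb)

end

end Vale.Agent.P097.H365.F5
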